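import Vale.Agent.P207.N3.H578.P10c
import Vale.Agent.P207.N3.H803.PFeed

/-!
# P207, line N3, package P10: (R0), (R0'), (R1), (R2) for a product formula in normal form
-/

open Set Filter Topology Metric
open scoped ContDiff

noncomputable section

namespace Vale.Agent.P207.N3.H578

open H12 (SplitPF EqPF)

variable {D : PF} {μ₁ μ₂ a : ℝ} {k : ℕ} {a' : ℝ} {k' : ℕ}

theorem SplitPF.rates (S : SplitPF D μ₁ μ₂ a k a' k') :
    0 < Real.log |μ₂| ∧ Real.log |μ₂| < Real.log |μ₁| :=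
  ⟨Real.log_pos S.ok.1, Real.log_lt_log (zero_lt_one.trans S.ok.1) S.lt⟩

theorem exists_big (κ : ℝ) {ℓ : ℝ} (hℓ : 0 < ℓ) : ∃ m : ℕ, 5 ≤ m ∧ 2 * κ < m * ℓ := by
  obtain ⟨n, hn⟩ := exists_nat_gt (2 * κ / ℓ)
  refine ⟨max 5 n, le_max_left _ _, ?_⟩
  rw [div_lt_iff₀ hℓ] at hn
  refine hn.trans_le ?_
  have : (n : ℝ) ≤ (max 5 n : ℕ) := by exact_mod_cast le_max_right 5 n
  gcongr

/-- **(R0)** -/
theorem R0 (S : SplitPF D μ₁ μ₂ a k a' k') : SmNear fun x => Jet.jet (D.X.X x) 0 1 := by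
  obtain ⟨h1, h2⟩ := SplitPF.rates S
  obtain ⟨FX⟩ := H803.feed_split_X S 4
  obtain ⟨FY⟩ := H803.feed_split_Y S 4
  exact pf_R0 FY FX le_rfl h1 h2

/-- **(R1)** -/
theorem R1 (S : SplitPF D μ₁ μ₂ a k a' k') :
    SmNear (fun y => Jet.jet (D.Y.S y) 0 2) ∨ SmNear (fun x => Jet.jet (D.X.S x) 0 2) := by
  obtain ⟨h1, h2⟩ := SplitPF.rates S
  obtain ⟨m, hm, hK⟩ := exists_big (Real.log |μ₁|) h1
  obtain ⟨FX⟩ := H803.feed_split_X S (m + 1)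
  obtain ⟨FY⟩ := H803.feed_split_Y S (m + 1)
  exact pf_R1 FY FX hm h1 h2 hK

/-- **(R2)** -/
theorem R2 (S : SplitPF D μ₁ μ₂ a k a' k') (h : SmNear fun x => Jet.jet (D.X.S x) 0 2) :
    SmNear fun x => Jet.jet (D.X.X x) 1 0 := by
  obtain ⟨h1, h2⟩ := SplitPF.rates S
  obtain ⟨m, hm, hK⟩ := exists_big (Real.log |μ₁|) h1
  obtain ⟨FX⟩ := H803.feed_split_X S (m + 1)
  obtain ⟨FY⟩ := H803.feed_split_Y S (m + 1)
  exact pf_R2 FY FX hm h1 h2 hK h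

/-- **(R0')** -/
theorem R0' (S : EqPF D μ₁ μ₂ a k) :
    SmNear (fun x => Jet.jet (D.X.X x) 1 0) ∧ SmNear (fun x => Jet.jet (D.X.X x) 0 1) := by
  have h1 : 0 < Real.log |μ₁| := Real.log_pos (S.ok.1.trans_le S.eq.le)
  obtain ⟨FX⟩ := H803.feed_eq_X S 4
  obtain ⟨FY⟩ := H803.feed_eq_Y S 4
  rw [S.eq] at FX FY
  exact ⟨pf_R0' FY FX le_rfl h1 0, pf_R0' FY FX le_rfl h1 1⟩

end Vale.Agent.P207.N3.H578
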