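import Vale.Agent.P207.N3.H578.Dyn

/-!
# P207, line N3, (OUT2): the side of a feed
-/

open Set Filter Topology Metric Sum
open scoped ContDiff Gradient

noncomputable section

namespace Vale.Agent.P207.N3.H578

open H254 H70 Jet

theorem fac_le {K : ℕ} {R : Type*} [CommRing R] [Algebra ℝ R] {T T' : ℕ × ℕ → R}
    (h : ∀ a, len a ≤ K → T a = T' a) {q : Fin 2 → R} {k : ℕ} (hk : k ≤ K) :
    ev k T q = ev k T' q := by
  unfold ev
  refine Finset.sum_congr rfl fun a ha => ?_
  rw [h a ((mem_tri.1 ha).trans hk)]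

theorem gr_congr {K : ℕ} (hK : 1 ≤ K) {R : Type*} [CommRing R] [Algebra ℝ R] {T T' : ℕ × ℕ → R}
    (h : ∀ a, len a ≤ K → T a = T' a) (q : Fin 2 → R) : gr K T q = gr K T' q := by
  funext i
  unfold gr
  refine fac_le (K := K - 1) (fun a ha => ?_) le_rfl
  exact h _ (by rw [len_add, len_e]; omega)

theorem he_congr {K : ℕ} (hK : 2 ≤ K) {R : Type*} [CommRing R] [Algebra ℝ R] {T T' : ℕ × ℕ → R}
    (h : ∀ a, len a ≤ K → T a = T' a) (q : Fin 2 → R) : he K T q = he K T' q := by
  funext i j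
  unfold he
  refine fac_le (K := K - 2) (fun a ha => ?_) le_rfl
  exact h _ (by rw [len_add, len_add, len_e, len_e]; omega)

/-- the product formula depends only on the jets of length at most `K` -/
theorem EK_congr {K : ℕ} (hK : 2 ≤ K) {R : Type*} [CommRing R] [Algebra ℝ R] (h : ℝ)
    {T X T' X' U Y U' Y' : ℕ × ℕ → R} (h1 : ∀ a, len a ≤ K → T a = U a)
    (h2 : ∀ a, len a ≤ K → X a = Y a) (h3 : ∀ a, len a ≤ K → T' a = U' a)
    (h4 : ∀ a, len a ≤ K → X' a = Y' a) : EK K h T X T' X' = EK K h U Y U' Y' := by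
  have hit : ∀ n, it K T T' n = it K U U' n := by
    intro n
    induction n with
    | zero => rfl
    | succ n ih =>
      have e : ∀ (T T' : ℕ × ℕ → R) n, it K T T' (n + 1)
        = (gr K T (it K T T' n).2, gr K T' (gr K T (it K T T' n).2)) := fun _ _ _ => rfl
      rw [e, e, ih, gr_congr (by omega) h1, gr_congr (by omega) h3]
  unfold EK FK
  rw [hit K, fac_le h2 le_rfl, fac_le h4 le_rfl, fac_le h1 le_rfl, fac_le h3 le_rfl,
    he_congr hK h1, he_congr hK h3]

namespace Feed

variable {H : Half} {κ ℓ : ℝ} {K : ℕ} (F : Feed H κ ℓ K)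

theorem exists_tp (j : F.J) : ∃ t : MvPolynomial F.J ℝ, t ∈ MvPolynomial.supported ℝ (F.S.D j) ∧
    (∀ α ∈ t.support, F.S.ord j ≤ α.degree) ∧ (j ∈ F.S.base → t = 0) ∧
    IsFlat K fun v => F.nf.R j v - MvPolynomial.eval v t := by
  by_cases hj : j ∈ F.S.base
  · refine ⟨0, Subalgebra.zero_mem _, fun α hα => by simp at hα, fun _ => rfl, ?_⟩
    refine (IsFlat.zero K).congr fun v => ?_
    rw [F.nf.R_base j hj]
    simp
  · obtain ⟨p, h1, h2, h3⟩ := exists_poly_dep K (F.nf.R_flat j) (F.nf.R_dep j)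
    exact ⟨p, h1, h2, fun h => absurd h hj, h3⟩

/-- the Taylor polynomial of the correction -/
def tp (j : F.J) : MvPolynomial F.J ℝ := (F.exists_tp j).choose

theorem tp_supp (j : F.J) : ∀ α ∈ (F.tp j).support, ∀ k ∈ α.support, k ∈ F.S.D j :=
  mem_supported_iff'.1 (F.exists_tp j).choose_spec.1

theorem tp_ord (j : F.J) : ∀ α ∈ (F.tp j).support, F.S.ord j ≤ α.degree :=
  (F.exists_tp j).choose_spec.2.1

theorem tp_base {j : F.J} (hj : j ∈ F.S.base) : F.tp j = 0 :=
  (F.exists_tp j).choose_spec.2.2.1 hj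

theorem tp_flat (j : F.J) : IsFlat K fun v => F.nf.R j v - MvPolynomial.eval v (F.tp j) :=
  (F.exists_tp j).choose_spec.2.2.2

open Classical in
/-- the variable of a label -/
def ix (b : Lb) : Option F.J := if h : ∃ j, F.lab j = b then some h.choose else none

theorem ix_lab (j : F.J) : F.ix (F.lab j) = some j := by
  unfold ix
  have h : ∃ k, F.lab k = F.lab j := ⟨j, rfl⟩
  rw [dif_pos h]
  exact congrArg some (F.lab_inj h.choose_spec)

theorem ix_none {b : Lb} (h : ¬ ∃ j, F.lab j = b) : F.ix b = none := by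
  unfold ix
  rw [dif_neg h]

/-- the raw jet as a polynomial in the corrected jets -/
def q (b : Lb) : MvPolynomial F.J ℝ :=
  (F.ix b).elim 0 fun j => MvPolynomial.X j - F.tp j

theorem q_lab (j : F.J) : F.q (F.lab j) = MvPolynomial.X j - F.tp j := by
  unfold q
  rw [ix_lab]
  rfl

theorem q_none {b : Lb} (h : ¬ ∃ j, F.lab j = b) : F.q b = 0 := by
  unfold q
  rw [F.ix_none h]
  rfl

/-- the raw jet as a function of the corrected jets -/
def U (b : Lb) (v : F.J → ℝ) : ℝ := (F.ix b).elim 0 fun j => v j - F.nf.R j v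

theorem U_lab (j : F.J) (v : F.J → ℝ) : F.U (F.lab j) v = v j - F.nf.R j v := by
  unfold U
  rw [ix_lab]
  rfl

theorem U_none {b : Lb} (h : ¬ ∃ j, F.lab j = b) (v : F.J → ℝ) : F.U b v = 0 := by
  unfold U
  rw [F.ix_none h]
  rfl

theorem U_smooth (b : Lb) : ContDiff ℝ ∞ (F.U b) := by
  by_cases h : ∃ j, F.lab j = b
  · obtain ⟨j, rfl⟩ := h
    have e : F.U (F.lab j) = fun v => v j - F.nf.R j v := funext fun v => F.U_lab j v
    rw [e]
    exact (contDiff_apply ℝ ℝ j).sub (F.nf.R_flat j).1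
  · have e : F.U b = fun _ => 0 := funext fun v => F.U_none h v
    rw [e]
    exact contDiff_const

theorem U_flat (b : Lb) : IsFlat K fun v => F.U b v - MvPolynomial.eval v (F.q b) := by
  by_cases h : ∃ j, F.lab j = b
  · obtain ⟨j, rfl⟩ := h
    refine (F.tp_flat j).neg.congr fun v => ?_
    rw [F.U_lab, F.q_lab, map_sub, MvPolynomial.eval_X]
    ring
  · refine (IsFlat.zero K).congr fun v => ?_
    rw [F.U_none h, F.q_none h, map_zero, sub_zero]

/-- the raw jets -/
theorem U_v0 (b : Lb) (hb : llen b ≤ K) {y : E2} (hy : y ∈ ball (0 : E2) H.r) :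
    F.U b (F.v0 y) = rj H b y := by
  by_cases h : ∃ j, F.lab j = b
  · obtain ⟨j, rfl⟩ := h
    rw [F.U_lab, ← F.raw_eq]
    rfl
  · rw [F.U_none h]
    have h0 : llen b = 0 := by
      by_contra h1
      exact h (F.exists_lab (Nat.one_le_iff_ne_zero.2 h1) hb)
    cases b with
    | inl a =>
      have ha : a = (0, 0) := by
        rw [llen_inl, len] at h0
        exact Prod.ext (by simp; omega) (by simp; omega)
      rw [ha, rj_inl]
      exact (H.S_val y hy).symm
    | inr a =>
      have ha : a = (0, 0) := by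
        rw [llen_inr, len] at h0
        exact Prod.ext (by simp; omega) (by simp; omega)
      rw [ha, rj_inr]
      exact (H.X_val y hy).symm

theorem supp_q {j : F.J} {β : F.J →₀ ℕ} (hβ : β ∈ (F.q (F.lab j)).support) :
    β = Finsupp.single j 1 ∨ β ∈ (F.tp j).support := by
  classical
  rw [F.q_lab] at hβ
  have h1 := MvPolynomial.support_sub F.J (MvPolynomial.X j) (F.tp j) hβ
  rw [Finset.mem_union, MvPolynomial.support_X, Finset.mem_singleton] at h1
  exact h1

theorem coeff_q (j : F.J) : (F.q (F.lab j)).coeff (Finsupp.single j 1) = 1 := by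
  rw [F.q_lab, MvPolynomial.coeff_sub, MvPolynomial.coeff_X]
  have h1 : (F.tp j).coeff (Finsupp.single j 1) = 0 := by
    by_contra h
    have h2 := F.tp_supp j _ (MvPolynomial.mem_support_iff.2 h) j (by
      rw [Finsupp.mem_support_iff, Finsupp.single_eq_same]
      exact one_ne_zero)
    exact lt_irrefl _ (F.S.D_rk j j h2)
  rw [h1, sub_zero, if_pos rfl]

theorem supp_rename {b : Lb} {α : Lb →₀ ℕ} (hα : α ∈ (MvPolynomial.rename F.lab (F.q b)).support) :
    ∃ j, F.lab j = b ∧ (α = Finsupp.single b 1 ∨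
      (F.S.ord j ≤ α.degree ∧ j ∉ F.S.base ∧ ∀ c ∈ α.support, ∃ k ∈ F.S.D j, F.lab k = c)) := by
  classical
  by_cases h : ∃ j, F.lab j = b
  · obtain ⟨j, rfl⟩ := h
    refine ⟨j, rfl, ?_⟩
    rw [MvPolynomial.support_rename_of_injective F.lab_inj, Finset.mem_image] at hα
    obtain ⟨β, hβ, rfl⟩ := hα
    rcases F.supp_q hβ with rfl | h2
    · left
      rw [Finsupp.mapDomain_single]
    · right
      refine ⟨?_, ?_, ?_⟩
      · rw [Finsupp.degree_mapDomain]
        exact F.tp_ord j β h2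
      · intro hb
        rw [F.tp_base hb] at h2
        simp at h2
      · intro c hc
        have h3 := Finsupp.mapDomain_support hc
        obtain ⟨k, hk, rfl⟩ := Finset.mem_image.1 h3
        exact ⟨k, F.tp_supp j β h2 k hk, rfl⟩
  · rw [F.q_none h, map_zero] at hα
    simp at hα

theorem coeff_rename (j : F.J) :
    (MvPolynomial.rename F.lab (F.q (F.lab j))).coeff (Finsupp.single (F.lab j) 1) = 1 := by
  have h1 : (Finsupp.single (F.lab j) 1 : Lb →₀ ℕ) = Finsupp.mapDomain F.lab (Finsupp.single j 1) := by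
    rw [Finsupp.mapDomain_single]
  rw [h1, MvPolynomial.coeff_rename_mapDomain F.lab F.lab_inj, F.coeff_q]

open Classical in
/-- the corrected jets, extended by zero -/
def vv (b : Lb) (y : E2) : ℝ :=
  if y ∈ ball (0 : E2) F.rad then (F.ix b).elim 0 fun j => F.v0 y j else 0

theorem vv_lab (j : F.J) {y : E2} (hy : y ∈ ball (0 : E2) F.rad) : F.vv (F.lab j) y = F.v0 y j := by
  unfold vv
  rw [if_pos hy, ix_lab]
  rfl

theorem vv_none {b : Lb} (h : ¬ ∃ j, F.lab j = b) (y : E2) : F.vv b y = 0 := by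
  unfold vv
  rw [F.ix_none h]
  split_ifs <;> rfl

/-- outside of the ball the value is the value at `0` -/
theorem vv_out (b : Lb) {y : E2} (hy : y ∉ ball (0 : E2) F.rad) : F.vv b y = F.vv b 0 := by
  have h0 : F.vv b 0 = 0 := by
    by_cases h : ∃ j, F.lab j = b
    · obtain ⟨j, rfl⟩ := h
      rw [F.vv_lab j (mem_ball_self F.rad_pos), F.v0_zero]
      rfl
    · exact F.vv_none h 0
  rw [h0]
  unfold vv
  rw [if_neg hy]

/-- **the side of a feed** -/
def side : H254.Side K E2 where
  v := F.vv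
  P a := MvPolynomial.rename F.lab (F.q (inl a))
  Q a := MvPolynomial.rename F.lab (F.q (inr a))
  P_zero := by
    rw [F.q_none, map_zero]
    rintro ⟨j, hj⟩
    have := ((F.lab_inl _).1 ⟨j, hj⟩).1
    simp [len] at this
  Q_zero := by
    rw [F.q_none, map_zero]
    rintro ⟨j, hj⟩
    have := ((F.lab_inr _).1 ⟨j, hj⟩).1
    simp [len] at this
  P_supp := by
    intro a α hα
    obtain ⟨j, hj, h1 | ⟨h1, h2, h3⟩⟩ := F.supp_rename hα
    · exact Or.inl h1
    · right
      have hl := (F.lab_inl a).1 ⟨j, hj⟩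
      have ha2 : 2 ≤ len a := by
        by_contra h
        have ha1 : len a = 1 := by
          have := hl.1
          omega
        have : a = e 0 ∨ a = e 1 := by
          unfold len at ha1
          rw [e_zero, e_one]
          rcases Nat.lt_or_ge a.1 1 with h4 | h4
          · right
            exact Prod.ext (by simp; omega) (by simp; omega)
          · left
            exact Prod.ext (by simp; omega) (by simp; omega)
        rcases this with rfl | rfl
        · exact h2 (F.base 0 j hj)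
        · exact h2 (F.base 1 j hj)
      refine ⟨(F.ord_inl j a hj ha2).trans h1, fun c hc => ?_⟩
      obtain ⟨k, hk, hkc⟩ := h3 c hc
      obtain ⟨b, hb1, hb2⟩ := F.D_inl j a hj ha2 k hk
      exact ⟨b, by rw [← hkc, hb1], ((F.lab_inl b).1 ⟨k, hb1⟩).1, hb2⟩
  P_one := by
    intro a h1 h2
    obtain ⟨j, hj⟩ := F.exists_lab (b := inl a) h1 h2
    rw [← hj]
    exact F.coeff_rename j
  Q_supp := by
    intro a α hα
    obtain ⟨j, hj, h1 | ⟨h1, h2, h3⟩⟩ := F.supp_rename hα
    · exact Or.inl h1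
    · right
      refine ⟨?_, fun c hc => ?_⟩
      · rintro rfl
        have := F.S.ord_pos j
        simp at h1
        omega
      · obtain ⟨k, hk, hkc⟩ := h3 c hc
        rcases F.D_inr j a hj k hk with ⟨b, hb1, hb2⟩ | ⟨b, hb1, hb2⟩
        · left
          exact ⟨b, by rw [← hkc, hb1], ((F.lab_inl b).1 ⟨k, hb1⟩).1, hb2⟩
        · right
          exact ⟨b, by rw [← hkc, hb1], ((F.lab_inr b).1 ⟨k, hb1⟩).1, hb2⟩
  Q_one := by
    intro a h1 h2
    obtain ⟨j, hj⟩ := F.exists_lab (b := inr a) h1 h2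
    rw [← hj]
    exact F.coeff_rename j

end Feed

end Vale.Agent.P207.N3.H578
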