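import Vale.Agent.P207.N3.H578.SideF

/-!
# P207, line N3, (OUT3): the bi-weight identities of the product formula
-/

open Set Filter Topology Metric Sum
open scoped ContDiff Gradient

noncomputable section

namespace Vale.Agent.P207.N3.H578

open H254 H70 Jet

/-! ### weights and multipliers -/

theorem wm_eq_sum {J : Type*} (wt : J → ℝ) (α : J →₀ ℕ) : wm wt α = α.sum fun j k => (k : ℝ) * wt j :=
  rfl

theorem vm_eq_prod {J : Type*} {R : Type*} [CommRing R] [Algebra ℝ R] (v : J → R) (α : J →₀ ℕ) :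
    vm v α = α.prod fun j k => v j ^ k := rfl

theorem wm_mapDomain {J J' : Type*} {f : J → J'} (hf : Function.Injective f) (wt : J' → ℝ)
    (α : J →₀ ℕ) : wm wt (Finsupp.mapDomain f α) = wm (wt ∘ f) α := by
  rw [wm_eq_sum, wm_eq_sum, Finsupp.sum_mapDomain_index_inj hf]
  rfl

theorem vm_mapDomain {J J' : Type*} {R : Type*} [CommRing R] [Algebra ℝ R] {f : J → J'}
    (hf : Function.Injective f) (v : J' → R) (α : J →₀ ℕ) :
    vm v (Finsupp.mapDomain f α) = vm (v ∘ f) α := by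
  rw [vm_eq_prod, vm_eq_prod, Finsupp.prod_mapDomain_index_inj hf]
  rfl

section two

variable {J J' : Type} [Fintype J] [Fintype J']

theorem wm_fintype {J : Type*} [Fintype J] (wt : J → ℝ) (α : J →₀ ℕ) :
    wm wt α = ∑ j, (α j : ℝ) * wt j := by
  rw [wm_eq_sum, Finsupp.sum_fintype _ _ fun j => by simp]

theorem vm_fintype {J : Type*} [Fintype J] (v : J → ℝ) (α : J →₀ ℕ) :
    vm v α = ∏ j, v j ^ α j := by
  rw [vm_eq_prod, Finsupp.prod_fintype _ _ fun j => by simp]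

theorem vm_two (v : J → ℝ) (v' : J' → ℝ) (γ : (J ⊕ J') →₀ ℕ) :
    vm (Sum.elim v v') γ = multL v γ * multR v' γ := by
  rw [vm_fintype, Fintype.prod_sum_type]
  rfl

theorem abs_multL {θ : J → ℝ} {wt : J → ℝ} (h : ∀ j, |θ j| = Real.exp (-(wt j)))
    (wt' : J' → ℝ) (hw' : wt' = 0) (γ : (J ⊕ J') →₀ ℕ) :
    |multL θ γ| = Real.exp (-(wm (Sum.elim wt wt') γ)) := by
  subst hw'
  rw [wm_fintype, Fintype.sum_sum_type, multL, Finset.abs_prod]
  simp only [abs_pow, h, Sum.elim_inl, Sum.elim_inr, Pi.zero_apply, mul_zero, Finset.sum_const_zero,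
    add_zero]
  rw [← Finset.sum_neg_distrib, Real.exp_sum]
  refine Finset.prod_congr rfl fun j _ => ?_
  rw [← Real.exp_nat_mul]
  congr 1
  ring

theorem abs_multR {θ' : J' → ℝ} {wt' : J' → ℝ} (h : ∀ j, |θ' j| = Real.exp (-(wt' j)))
    (wt : J → ℝ) (hw : wt = 0) (γ : (J ⊕ J') →₀ ℕ) :
    |multR θ' γ| = Real.exp (-(wm (Sum.elim wt wt') γ)) := by
  subst hw
  rw [wm_fintype, Fintype.sum_sum_type, multR, Finset.abs_prod]
  simp only [abs_pow, h, Sum.elim_inl, Sum.elim_inr, Pi.zero_apply, mul_zero, Finset.sum_const_zero,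
    zero_add]
  rw [← Finset.sum_neg_distrib, Real.exp_sum]
  refine Finset.prod_congr rfl fun j _ => ?_
  rw [← Real.exp_nat_mul]
  congr 1
  ring

/-- From multipliers to weights. -/
theorem weight_of_mult {θ : J → ℝ} {θ' : J' → ℝ} {wt : J → ℝ} {wt' : J' → ℝ}
    (h : ∀ j, |θ j| = Real.exp (-(wt j))) (h' : ∀ j, |θ' j| = Real.exp (-(wt' j)))
    (p : MvPolynomial (J ⊕ J') ℝ) (v : J → ℝ) (v' : J' → ℝ) {W : ℝ}
    (H : ∀ l m : ℝ, Real.exp (-W) < |l * m| →
      ∑ γ ∈ p.support.filter (fun γ => multL θ γ = l ∧ multR θ' γ = m),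
        p.coeff γ * (multL v γ * multR v' γ) = 0) {w w' : ℝ} (hw : w + w' < W) :
    ∑ γ ∈ p.support.filter (fun γ => wm (Sum.elim wt 0) γ = w ∧ wm (Sum.elim 0 wt') γ = w'),
      p.coeff γ * vm (Sum.elim v v') γ = 0 := by
  classical
  set s := p.support.filter (fun γ => wm (Sum.elim wt 0) γ = w ∧ wm (Sum.elim 0 wt') γ = w')
    with hs
  set g : ((J ⊕ J') →₀ ℕ) → ℝ × ℝ := fun γ => (multL θ γ, multR θ' γ) with hg
  have h1 : ∑ γ ∈ s, p.coeff γ * vm (Sum.elim v v') γ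
      = ∑ c ∈ s.image g, ∑ γ ∈ s.filter (fun γ => g γ = c), p.coeff γ * vm (Sum.elim v v') γ :=
    (Finset.sum_fiberwise_of_maps_to (fun γ hγ => Finset.mem_image_of_mem g hγ) _).symm
  rw [h1]
  refine Finset.sum_eq_zero fun c hc => ?_
  obtain ⟨γ0, hγ0, hc0⟩ := Finset.mem_image.1 hc
  have hw0 := (Finset.mem_filter.1 hγ0).2
  have hl : |c.1| = Real.exp (-w) := by
    rw [← hc0, ← hw0.1]
    exact abs_multL h 0 rfl γ0
  have hm : |c.2| = Real.exp (-w') := by
    rw [← hc0, ← hw0.2]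
    exact abs_multR h' 0 rfl γ0
  have h2 : s.filter (fun γ => g γ = c)
      = p.support.filter (fun γ => multL θ γ = c.1 ∧ multR θ' γ = c.2) := by
    ext γ
    rw [Finset.mem_filter, hs, Finset.mem_filter, Finset.mem_filter]
    constructor
    · rintro ⟨⟨h3, _⟩, h4⟩
      exact ⟨h3, by rw [← h4], by rw [← h4]⟩
    · rintro ⟨h3, h4, h5⟩
      refine ⟨⟨h3, ?_, ?_⟩, Prod.ext h4 h5⟩
      · have h6 := abs_multL h (0 : J' → ℝ) rfl γ
        rw [h4, hl] at h6
        have := Real.exp_injective h6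
        linarith
      · have h6 := abs_multR h' (0 : J → ℝ) rfl γ
        rw [h5, hm] at h6
        have := Real.exp_injective h6
        linarith
  rw [h2]
  have h3 := H c.1 c.2 (by
    rw [abs_mul, hl, hm, ← Real.exp_add]
    exact Real.exp_lt_exp.2 (by linarith))
  rw [← h3]
  exact Finset.sum_congr rfl fun γ _ => by rw [vm_two]

end two

/-! ### the polynomial of the product formula in the raw jets -/

theorem eval_EK {σ : Type*} (K : ℕ) (h : ℝ) (T X T' X' : ℕ × ℕ → MvPolynomial σ ℝ) (z : σ → ℝ) :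
    MvPolynomial.eval z (EK K h T X T' X') = EK K h (fun a => MvPolynomial.eval z (T a))
      (fun a => MvPolynomial.eval z (X a)) (fun a => MvPolynomial.eval z (T' a))
      fun a => MvPolynomial.eval z (X' a) := by
  have e : ∀ p : MvPolynomial σ ℝ, MvPolynomial.eval z p = MvPolynomial.aeval z p := fun p => by
    rw [MvPolynomial.aeval_eq_eval]
  simp only [e]
  exact EK_map (MvPolynomial.aeval z : MvPolynomial σ ℝ →ₐ[ℝ] ℝ) K h T X T' X'

section main

variable {D : PF} {κ ℓ : ℝ} {K : ℕ} (FY : Feed D.Y κ ℓ K) (FX : Feed D.X κ ℓ K)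

/-- the variable of a label, first side -/
def zL (b : Lb) : MvPolynomial (FY.J ⊕ FX.J) ℝ := (FY.ix b).elim 0 fun j => MvPolynomial.X (inl j)

/-- the variable of a label, second side -/
def zR (b : Lb) : MvPolynomial (FY.J ⊕ FX.J) ℝ := (FX.ix b).elim 0 fun j => MvPolynomial.X (inr j)

/-- the product formula in the raw variables -/
def eRaw : MvPolynomial (FY.J ⊕ FX.J) ℝ :=
  EK K D.h (fun a => zL FY FX (inl a)) (fun a => zL FY FX (inr a)) (fun a => zR FY FX (inl a))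
    fun a => zR FY FX (inr a)

theorem eval_zL (b : Lb) (hb : llen b ≤ K) {y : E2} (hy : y ∈ ball (0 : E2) D.Y.r)
    (u' : FX.J → ℝ) : MvPolynomial.eval (Sum.elim (FY.raw y) u') (zL FY FX b) = rj D.Y b y := by
  have h1 := FY.U_v0 b hb hy
  by_cases h : ∃ j, FY.lab j = b
  · obtain ⟨j, rfl⟩ := h
    unfold zL
    rw [FY.ix_lab]
    show MvPolynomial.eval _ (MvPolynomial.X (inl j)) = _
    rw [MvPolynomial.eval_X]
    rfl
  · rw [FY.U_none h] at h1
    unfold zL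
    rw [FY.ix_none h, ← h1]
    exact map_zero _

theorem eval_zR (b : Lb) (hb : llen b ≤ K) {x : E2} (hx : x ∈ ball (0 : E2) D.X.r)
    (u : FY.J → ℝ) : MvPolynomial.eval (Sum.elim u (FX.raw x)) (zR FY FX b) = rj D.X b x := by
  have h1 := FX.U_v0 b hb hx
  by_cases h : ∃ j, FX.lab j = b
  · obtain ⟨j, rfl⟩ := h
    unfold zR
    rw [FX.ix_lab]
    show MvPolynomial.eval _ (MvPolynomial.X (inr j)) = _
    rw [MvPolynomial.eval_X]
    rfl
  · rw [FX.U_none h] at h1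
    unfold zR
    rw [FX.ix_none h, ← h1]
    exact map_zero _

theorem eval_eRaw (hK : 2 ≤ K) {y x : E2} (hy : y ∈ ball (0 : E2) D.Y.r)
    (hx : x ∈ ball (0 : E2) D.X.r) :
    MvPolynomial.eval (Sum.elim (FY.raw y) (FX.raw x)) (eRaw FY FX)
      = EK K D.h (Tj (D.Y.S y)) (Tj (D.Y.X y)) (Tj (D.X.S x)) (Tj (D.X.X x)) := by
  unfold eRaw
  rw [eval_EK]
  refine EK_congr hK D.h (fun a ha => ?_) (fun a ha => ?_) (fun a ha => ?_) fun a ha => ?_
  · exact eval_zL FY FX (inl a) ha hy _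
  · exact eval_zL FY FX (inr a) ha hy _
  · exact eval_zR FY FX (inl a) ha hx _
  · exact eval_zR FY FX (inr a) ha hx _

theorem subst_zL (b : Lb) :
    subst FY.tp FX.tp (zL FY FX b) = MvPolynomial.rename inl (FY.q b) := by
  unfold zL Feed.q
  cases FY.ix b with
  | none => simp
  | some j =>
    show subst FY.tp FX.tp (MvPolynomial.X (inl j)) = MvPolynomial.rename inl (MvPolynomial.X j - FY.tp j)
    rw [subst, MvPolynomial.aeval_X, Sum.elim_inl]

theorem subst_zR (b : Lb) :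
    subst FY.tp FX.tp (zR FY FX b) = MvPolynomial.rename inr (FX.q b) := by
  unfold zR Feed.q
  cases FX.ix b with
  | none => simp
  | some j =>
    show subst FY.tp FX.tp (MvPolynomial.X (inr j)) = MvPolynomial.rename inr (MvPolynomial.X j - FX.tp j)
    rw [subst, MvPolynomial.aeval_X, Sum.elim_inr]

theorem pK_eq : pK D.h FY.side FX.side
    = MvPolynomial.rename (Sum.map FY.lab FX.lab) (subst FY.tp FX.tp (eRaw FY FX)) := by
  have h1 := EK_map ((MvPolynomial.rename (Sum.map FY.lab FX.lab)).comp (subst FY.tp FX.tp)) K D.h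
    (fun a => zL FY FX (inl a)) (fun a => zL FY FX (inr a)) (fun a => zR FY FX (inl a))
    fun a => zR FY FX (inr a)
  have hL : ∀ b, ((MvPolynomial.rename (R := ℝ) (Sum.map FY.lab FX.lab)).comp (subst FY.tp FX.tp))
      (zL FY FX b) = MvPolynomial.rename inl (MvPolynomial.rename FY.lab (FY.q b)) := by
    intro b
    rw [AlgHom.comp_apply, subst_zL, MvPolynomial.rename_rename, MvPolynomial.rename_rename]
    rfl
  have hR : ∀ b, ((MvPolynomial.rename (R := ℝ) (Sum.map FY.lab FX.lab)).comp (subst FY.tp FX.tp))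
      (zR FY FX b) = MvPolynomial.rename inr (MvPolynomial.rename FX.lab (FX.q b)) := by
    intro b
    rw [AlgHom.comp_apply, subst_zR, MvPolynomial.rename_rename, MvPolynomial.rename_rename]
    rfl
  simp only [hL, hR] at h1
  exact h1.symm

/-- **the bi-multiplier identities** -/
theorem biMult (hK : 2 ≤ K) (hℓ : 0 < ℓ) (hκ : ℓ ≤ κ) {y x : E2}
    (hy : y ∈ ball (0 : E2) FY.rad) (hx : x ∈ ball (0 : E2) FX.rad) {l m : ℝ}
    (hlm : Real.exp (-(((K : ℝ) - 1) * ℓ)) < |l * m|) :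
    ∑ γ ∈ (subst FY.tp FX.tp (eRaw FY FX)).support.filter
        (fun γ => multL FY.S.θ γ = l ∧ multR FX.S.θ γ = m),
      (subst FY.tp FX.tp (eRaw FY FX)).coeff γ * (multL (FY.v0 y) γ * multR (FX.v0 x) γ) = 0 := by
  have hK1 : 1 ≤ K := by omega
  have h0 : Real.exp (-ℓ) ^ (K - 1) < |l * m| := by
    rw [← Real.exp_nat_mul, Nat.cast_sub hK1, Nat.cast_one, mul_neg]
    exact hlm
  have h1 : ∀ᶠ σ in 𝓝[>] Real.exp (-ℓ), σ ^ (K - 1) < |l * m| := by
    have hc : ContinuousAt (fun σ : ℝ => σ ^ (K - 1)) (Real.exp (-ℓ)) :=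
      (continuous_pow (K - 1)).continuousAt
    exact (hc.eventually (gt_mem_nhds h0)).filter_mono nhdsWithin_le_nhds
  have h2 : ∀ᶠ σ in 𝓝[>] Real.exp (-ℓ), Real.exp (-ℓ) < σ ∧ σ < 1 := by
    have : Real.exp (-ℓ) < 1 := by
      rw [← Real.exp_zero]
      exact Real.exp_lt_exp.2 (by linarith)
    filter_upwards [Ioo_mem_nhdsGT this] with σ hσ using hσ
  obtain ⟨σ, hσl, hσe, hσ1⟩ := (h1.and h2).exists
  have hσ0 : 0 < σ := (Real.exp_pos _).trans hσe
  have hY : ∀ j, |FY.S.θ j| < σ := fun j => (FY.theta_le hℓ.le hκ j).trans_lt hσe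
  have hX : ∀ j, |FX.S.θ j| < σ := fun j => (FX.theta_le hℓ.le hκ j).trans_lt hσe
  obtain ⟨C1, hC1, b1⟩ := FY.raw_decay hK1 hY hσ0 hσ1 hy
  obtain ⟨C2, hC2, b2⟩ := FX.raw_decay hK1 hX hσ0 hσ1 hx
  have hρ : 0 < σ ^ (K - 1) := pow_pos hσ0 _
  have hle : σ ^ K ≤ σ ^ (K - 1) := pow_le_pow_of_le_one hσ0.le hσ1.le (Nat.sub_le K 1)
  have tj : ∀ (H : Half) (F : Feed H κ ℓ K) (C : ℝ), 0 ≤ C → C ≤ C1 + C2 → ∀ z : E2,
      (∀ n j, |F.raw (H.M^[n] z) j| ≤ C * σ ^ n) → ∀ n a, 1 ≤ len a → len a ≤ K →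
      |Tj (H.S (H.M^[n] z)) a| ≤ (C1 + C2) * σ ^ n := by
    intro H F C hC hCC z hz n a h3 h4
    obtain ⟨j, hj⟩ := F.exists_lab (b := inl a) h3 h4
    have h5 := hz n j
    have h6 : F.raw (H.M^[n] z) j = Tj (H.S (H.M^[n] z)) a := by
      unfold Feed.raw
      rw [hj, rj_inl]
    rw [h6] at h5
    exact h5.trans (mul_le_mul_of_nonneg_right hCC (by positivity))
  obtain ⟨C, n0, hC, hb⟩ := out1_seq D hK (yy := fun n => D.Y.M^[n] y) (xx := fun n => D.X.M^[n] x)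
    (σ := σ) (c := C1 + C2) hσ0 hσ1 (FY.orbit_tendsto hK1 hy) (FX.orbit_tendsto hK1 hx)
    (tj D.Y FY C1 hC1 (by linarith) y b1) (tj D.X FX C2 hC2 (by linarith) x b2)
  refine NForm.principle FY.nf FX.nf (K := K) FY.tp_flat FX.tp_flat hσ0 hσ1 hY hX
    (u := fun n => FY.raw (D.Y.M^[n] y)) (fun n => (FY.rad_orbit hK1 hy n).2.1)
    (fun n => (FY.rad_orbit hK1 hy n).2.2)
    (u' := fun n => FX.raw (D.X.M^[n] x)) (fun n => (FX.rad_orbit hK1 hx n).2.1)
    (fun n => (FX.rad_orbit hK1 hx n).2.2)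
    (eRaw FY FX) hρ hle (fun j => ⟨C * 2 ^ (K - 1), ?_⟩) hσl
  filter_upwards [eventually_ge_atTop n0] with n hn
  have e1 : D.Y.M^[n] y ∈ ball (0 : E2) D.Y.r :=
    ball_subset_ball D.Y.ρ_le (FY.rad_orbit hK1 hy n).1
  have e2 : D.X.M^[n + j] x ∈ ball (0 : E2) D.X.r :=
    ball_subset_ball D.X.ρ_le (FX.rad_orbit hK1 hx (n + j)).1
  rw [eval_eRaw FY FX hK e1 e2]
  refine (hb n hn (n + j) (by omega)).trans ?_
  have h3 : σ ^ (n + j) ≤ σ ^ n := pow_le_pow_of_le_one hσ0.le hσ1.le (Nat.le_add_right n j)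
  have h4 : (σ ^ n + σ ^ (n + j)) ^ (K - 1) ≤ (2 * σ ^ n) ^ (K - 1) :=
    pow_le_pow_left₀ (by positivity) (by linarith) _
  have h5 : (2 * σ ^ n) ^ (K - 1) = 2 ^ (K - 1) * (σ ^ (K - 1)) ^ n := by
    rw [mul_pow, ← pow_mul, ← pow_mul, mul_comm n (K - 1)]
  rw [h5] at h4
  calc C * (σ ^ n + σ ^ (n + j)) ^ (K - 1) ≤ C * (2 ^ (K - 1) * (σ ^ (K - 1)) ^ n) :=
        mul_le_mul_of_nonneg_left h4 hC.le
    _ = C * 2 ^ (K - 1) * (σ ^ (K - 1)) ^ n := by ring

theorem vv_comp (H : Half) (F : Feed H κ ℓ K) {y : E2} (hy : y ∈ ball (0 : E2) F.rad) :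
    (fun b => F.vv b y) ∘ F.lab = F.v0 y := funext fun j => F.vv_lab j hy

/-- **(OUT3): the bi-weight identities of the product formula.** -/
theorem twoId (hK : 2 ≤ K) (hℓ : 0 < ℓ) (hκ : ℓ ≤ κ) :
    TwoId κ ℓ D.h (((K : ℝ) - 1) * ℓ) FY.side FX.side := by
  classical
  -- on the balls
  have key : ∀ w w' : ℝ, w + w' < ((K : ℝ) - 1) * ℓ → ∀ y ∈ ball (0 : E2) FY.rad,
      ∀ x ∈ ball (0 : E2) FX.rad,
      ∑ α ∈ (pK D.h FY.side FX.side).support.filter (fun α => wm (Sum.elim (wtl κ ℓ) 0) α = w ∧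
          wm (Sum.elim 0 (wtl κ ℓ)) α = w'),
        (pK D.h FY.side FX.side).coeff α *
          vm (Sum.elim (fun j => FY.side.v j y) fun j => FX.side.v j x) α = 0 := by
    intro w w' hw y hy x hx
    have hinj : Function.Injective (Sum.map FY.lab FX.lab) :=
      FY.lab_inj.sumMap FX.lab_inj
    set p := subst FY.tp FX.tp (eRaw FY FX) with hp
    have h1 := weight_of_mult (θ := FY.S.θ) (θ' := FX.S.θ) (wt := fun j => wtl κ ℓ (FY.lab j))
      (wt' := fun j => wtl κ ℓ (FX.lab j)) FY.wt FX.wt p (FY.v0 y) (FX.v0 x)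
      (W := ((K : ℝ) - 1) * ℓ) (fun l m hlm => biMult FY FX hK hℓ hκ hy hx hlm) hw
    rw [pK_eq, ← hp, MvPolynomial.support_rename_of_injective hinj, Finset.filter_image,
      Finset.sum_image fun a _ b _ hab => Finsupp.mapDomain_injective hinj hab]
    refine Eq.trans ?_ h1
    have hwL : (Sum.elim (wtl κ ℓ) 0 : Lb ⊕ Lb → ℝ) ∘ Sum.map FY.lab FX.lab
        = Sum.elim (fun j => wtl κ ℓ (FY.lab j)) (0 : FX.J → ℝ) := by
      funext c
      cases c <;> rfl
    have hwR : (Sum.elim 0 (wtl κ ℓ) : Lb ⊕ Lb → ℝ) ∘ Sum.map FY.lab FX.lab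
        = Sum.elim (0 : FY.J → ℝ) fun j => wtl κ ℓ (FX.lab j) := by
      funext c
      cases c <;> rfl
    have hv : (Sum.elim (fun j => FY.side.v j y) (fun j => FX.side.v j x) : Lb ⊕ Lb → ℝ)
        ∘ Sum.map FY.lab FX.lab = Sum.elim (FY.v0 y) (FX.v0 x) := by
      funext c
      cases c with
      | inl j => exact FY.vv_lab j hy
      | inr j => exact FX.vv_lab j hx
    refine Finset.sum_congr ?_ fun γ _ => ?_
    · refine Finset.filter_congr fun γ _ => ?_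
      rw [wm_mapDomain hinj, wm_mapDomain hinj, hwL, hwR]
    · rw [MvPolynomial.coeff_rename_mapDomain _ hinj, vm_mapDomain hinj, hv]
  intro w w' hw y x
  -- reduction to the balls
  have hred : ∀ (H : Half) (F : Feed H κ ℓ K) (z : E2), ∃ z' ∈ ball (0 : E2) F.rad,
      (fun j => F.side.v j z) = fun j => F.side.v j z' := by
    intro H F z
    by_cases hz : z ∈ ball (0 : E2) F.rad
    · exact ⟨z, hz, rfl⟩
    · exact ⟨0, mem_ball_self F.rad_pos, funext fun j => F.vv_out j hz⟩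
  obtain ⟨y', hy', ey⟩ := hred D.Y FY y
  obtain ⟨x', hx', ex⟩ := hred D.X FX x
  rw [ey, ex]
  exact key w w' hw y' hy' x' hx'

end main

end Vale.Agent.P207.N3.H578
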