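import Vale.Agent.P207.N3.H578.EvB

/-!
# P207, line N3, package P3D (OUT1): the finite jet identity, core estimate

`f`, `f'` (potentials of the two leaves), `g = ∇ f`, `g' = ∇ f'`, `H = D² f`, `H' = D² f'`,
`X`, `X'` (densities) satisfy the product formula at the intersection `p = g q`, `q = g' p`;
`T`, `T'`, `J`, `J'` are their jets at `0`. Then the truncated product formula `EK` of `H254` is
`O(w^(K-1))`, `w` = size of the jets `T_a`, `T'_a`, `1 ≤ |a| ≤ K`.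
-/

open Finset Metric Set

namespace Vale.Agent.P207.N3.H578

open H254

/-- Taylor bounds for a function -/
structure TB (K : ℕ) (B δ : ℝ) (f : (Fin 2 → ℝ) → ℝ) (T : ℕ × ℕ → ℝ) : Prop where
  val : ∀ q, ‖q‖ < δ → |f q - ev K T q| ≤ B * ‖q‖ ^ (K + 1)

/-- Taylor bounds for a function, its gradient and its Hessian -/
structure TG (K : ℕ) (B δ : ℝ) (f : (Fin 2 → ℝ) → ℝ) (g : (Fin 2 → ℝ) → Fin 2 → ℝ)
    (H : (Fin 2 → ℝ) → Fin 2 → Fin 2 → ℝ) (T : ℕ × ℕ → ℝ) : Prop where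
  val : ∀ q, ‖q‖ < δ → |f q - ev K T q| ≤ B * ‖q‖ ^ (K + 1)
  grad : ∀ q, ‖q‖ < δ → ‖g q - gr K T q‖ ≤ B * ‖q‖ ^ K
  hess : ∀ q, ‖q‖ < δ → ∀ i j, |H q i j - he K T q i j| ≤ B * ‖q‖ ^ (K - 1)
  der : ∀ q, ‖q‖ < δ → ∀ i, HasFDerivAt (fun q => g q i)
    (∑ j, H q i j • (ContinuousLinearMap.proj j : (Fin 2 → ℝ) →L[ℝ] ℝ)) q

/-- Lipschitz bound from the Hessian -/
theorem lip_of {g : (Fin 2 → ℝ) → Fin 2 → ℝ} {H : (Fin 2 → ℝ) → Fin 2 → Fin 2 → ℝ} {u s : ℝ}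
    (hs : 0 ≤ s)
    (hd : ∀ q, ‖q‖ ≤ u → ∀ i, HasFDerivAt (fun q => g q i)
      (∑ j, H q i j • (ContinuousLinearMap.proj j : (Fin 2 → ℝ) →L[ℝ] ℝ)) q)
    (hH : ∀ q, ‖q‖ ≤ u → ∀ i j, |H q i j| ≤ s) {q q' : Fin 2 → ℝ} (hq : ‖q‖ ≤ u)
    (hq' : ‖q'‖ ≤ u) : ‖g q - g q'‖ ≤ 2 * s * ‖q - q'‖ := by
  refine (pi_norm_le_iff_of_nonneg (by positivity)).2 fun i => ?_
  rw [Pi.sub_apply]
  have hcv : Convex ℝ (closedBall (0 : Fin 2 → ℝ) u) := convex_closedBall _ _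
  have hm : ∀ {x : Fin 2 → ℝ}, ‖x‖ ≤ u → x ∈ closedBall (0 : Fin 2 → ℝ) u := fun hx =>
    mem_closedBall_zero_iff.2 hx
  refine hcv.norm_image_sub_le_of_norm_hasFDerivWithin_le (f := fun q => g q i)
    (f' := fun q => ∑ j, H q i j • (ContinuousLinearMap.proj j : (Fin 2 → ℝ) →L[ℝ] ℝ))
    (fun x hx => (hd x (mem_closedBall_zero_iff.1 hx) i).hasFDerivWithinAt) (fun x hx => ?_)
    (hm hq') (hm hq)
  refine ContinuousLinearMap.opNorm_le_bound _ (by positivity) fun v => ?_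
  have h1 := hH x (mem_closedBall_zero_iff.1 hx) i
  have e : (∑ j, H x i j • (ContinuousLinearMap.proj j : (Fin 2 → ℝ) →L[ℝ] ℝ)) v
      = H x i 0 * v 0 + H x i 1 * v 1 := by
    simp [Fin.sum_univ_two]
  rw [e, Real.norm_eq_abs]
  refine (abs_add_le _ _).trans ?_
  rw [abs_mul, abs_mul]
  have h2 : |H x i 0| * |v 0| ≤ s * ‖v‖ :=
    mul_le_mul (h1 0) (norm_le_pi_norm v 0) (abs_nonneg _) hs
  have h3 : |H x i 1| * |v 1| ≤ s * ‖v‖ :=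
    mul_le_mul (h1 1) (norm_le_pi_norm v 1) (abs_nonneg _) hs
  linarith

/-- the intersection point of the two leaves -/
theorem exists_inter {g g' : (Fin 2 → ℝ) → Fin 2 → ℝ} {u : ℝ} (hu : 0 ≤ u)
    (hg : ∀ q, ‖q‖ ≤ u → ‖g q‖ ≤ u) (hg' : ∀ q, ‖q‖ ≤ u → ‖g' q‖ ≤ u)
    (hl : ∀ q q', ‖q‖ ≤ u → ‖q'‖ ≤ u → ‖g q - g q'‖ ≤ 1 / 2 * ‖q - q'‖)
    (hl' : ∀ q q', ‖q‖ ≤ u → ‖q'‖ ≤ u → ‖g' q - g' q'‖ ≤ 1 / 2 * ‖q - q'‖) :
    ∃ q p, ‖q‖ ≤ u ∧ ‖p‖ ≤ u ∧ p = g q ∧ q = g' p := by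
  have hmt : MapsTo (fun q => g' (g q)) (closedBall (0 : Fin 2 → ℝ) u)
      (closedBall (0 : Fin 2 → ℝ) u) := fun q hq =>
    mem_closedBall_zero_iff.2 (hg' _ (hg _ (mem_closedBall_zero_iff.1 hq)))
  have hcl : IsComplete (closedBall (0 : Fin 2 → ℝ) u) := isClosed_closedBall.isComplete
  have hc : ContractingWith (1 / 4) (hmt.restrict _ _ _) := by
    refine ⟨by
      rw [← NNReal.coe_lt_coe]
      norm_num, LipschitzWith.of_dist_le_mul fun x y => ?_⟩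
    have hx := mem_closedBall_zero_iff.1 x.2
    have hy := mem_closedBall_zero_iff.1 y.2
    have h1 := hl _ _ hx hy
    have h2 := hl' _ _ (hg _ hx) (hg _ hy)
    have e : dist (hmt.restrict _ _ _ x) (hmt.restrict _ _ _ y)
        = ‖g' (g x.1) - g' (g y.1)‖ := by
      rw [Subtype.dist_eq, dist_eq_norm]
      rfl
    rw [e, Subtype.dist_eq, dist_eq_norm]
    have h3 : ((1 / 4 : NNReal) : ℝ) = 1 / 4 := by norm_num
    rw [h3]
    linarith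
  obtain ⟨q, hq, hf, -⟩ := hc.exists_fixedPoint' hcl hmt
    (x := (0 : Fin 2 → ℝ)) (mem_closedBall_self hu) (edist_ne_top _ _)
  have hq' := mem_closedBall_zero_iff.1 hq
  exact ⟨q, g q, hq', hg _ hq', rfl, hf.symm⟩

/-- sizes -/
theorem tg_bounds {K : ℕ} (hK : 2 ≤ K) {B δ u w : ℝ} (hB : 0 ≤ B) (hu : 0 ≤ u) (hw : 0 ≤ w)
    (huw : u = 2 * ((K : ℝ) + 1) ^ 3 * w) (hu1 : (B + 1) * u ≤ 1 / 8) (huδ : u < δ)
    {f : (Fin 2 → ℝ) → ℝ} {g : (Fin 2 → ℝ) → Fin 2 → ℝ} {H : (Fin 2 → ℝ) → Fin 2 → Fin 2 → ℝ}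
    {T : ℕ × ℕ → ℝ} (hT : TG K B δ f g H T) (hw1 : ∀ a, 1 ≤ len a → len a ≤ K → |T a| ≤ w) :
    (∀ q, ‖q‖ ≤ u → ‖gr K T q‖ ≤ u / 2) ∧
    (∀ q, ‖q‖ ≤ u → ‖g q‖ ≤ u) ∧
    (∀ q, ‖q‖ ≤ u → ∀ i j, |H q i j| ≤ (B + 1) * u) ∧
    (∀ q q', ‖q‖ ≤ u → ‖q'‖ ≤ u → ‖g q - g q'‖ ≤ 1 / 2 * ‖q - q'‖) := by
  have hu8 : u ≤ 1 / 8 := by nlinarith
  have hu1' : u ≤ 1 := by linarith
  have hp : u ^ (K - 1) ≤ u := by
    have := pow_le_pow_of_le_one hu hu1' (show 1 ≤ K - 1 by omega)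
    simpa using this
  have hpk : u ^ K ≤ u * u := by
    have := pow_le_pow_of_le_one hu hu1' hK
    rwa [sq] at this
  have h1 : ∀ q, ‖q‖ ≤ u → ‖gr K T q‖ ≤ u / 2 := fun q hq => by
    have := gr_le (K := K) (by omega) hw hw1 (hq.trans hu1')
    rw [huw]; linarith
  have h2 : ∀ q, ‖q‖ ≤ u → ∀ i j, |H q i j| ≤ (B + 1) * u := fun q hq i j => by
    have h3 := hT.hess q (hq.trans_lt huδ) i j
    have h4 := he_le (K := K) hK hw hw1 (hq.trans hu1') i j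
    have h5 : B * ‖q‖ ^ (K - 1) ≤ B * u :=
      mul_le_mul_of_nonneg_left ((pow_le_pow_left₀ (norm_nonneg _) hq _).trans hp) hB
    have h6 : ((K : ℝ) + 1) ^ 3 * w = u / 2 := by rw [huw]; ring
    have h7 : |H q i j| ≤ |H q i j - he K T q i j| + |he K T q i j| := by
      have := abs_add_le (H q i j - he K T q i j) (he K T q i j)
      rwa [sub_add_cancel] at this
    linarith
  refine ⟨h1, fun q hq => ?_, h2, fun q q' hq hq' => ?_⟩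
  · have h3 := hT.grad q (hq.trans_lt huδ)
    have h4 := h1 q hq
    have h5 : B * ‖q‖ ^ K ≤ B * (u * u) :=
      mul_le_mul_of_nonneg_left ((pow_le_pow_left₀ (norm_nonneg _) hq _).trans hpk) hB
    have h6 : B * (u * u) ≤ 1 / 8 * u := by nlinarith
    have h7 : ‖g q‖ ≤ ‖g q - gr K T q‖ + ‖gr K T q‖ := by
      have := norm_add_le (g q - gr K T q) (gr K T q)
      rwa [sub_add_cancel] at this
    linarith
  · have h3 := lip_of (g := g) (H := H) (u := u) (s := (B + 1) * u) (by positivity)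
      (fun x hx => hT.der x (hx.trans_lt huδ)) h2 hq hq'
    have h4 : 0 ≤ ‖q - q'‖ := norm_nonneg _
    have h5 : 2 * ((B + 1) * u) * ‖q - q'‖ ≤ 1 / 2 * ‖q - q'‖ :=
      mul_le_mul_of_nonneg_right (by linarith) h4
    linarith

/-- the iterates approximate the intersection point -/
theorem it_close {K : ℕ} (hK : 2 ≤ K) {B δ u w : ℝ} (hB : 0 ≤ B) (hu : 0 ≤ u) (hw : 0 ≤ w)
    (huw : u = 2 * ((K : ℝ) + 1) ^ 3 * w) (hu1 : (B + 1) * u ≤ 1 / 8) (huδ : u < δ)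
    {f f' : (Fin 2 → ℝ) → ℝ} {g g' : (Fin 2 → ℝ) → Fin 2 → ℝ}
    {H H' : (Fin 2 → ℝ) → Fin 2 → Fin 2 → ℝ}
    {T T' : ℕ × ℕ → ℝ} (hT : TG K B δ f g H T) (hT' : TG K B δ f' g' H' T')
    (hw1 : ∀ a, 1 ≤ len a → len a ≤ K → |T a| ≤ w)
    (hw1' : ∀ a, 1 ≤ len a → len a ≤ K → |T' a| ≤ w) {q p : Fin 2 → ℝ} (hq : ‖q‖ ≤ u)
    (hp : ‖p‖ ≤ u) (e1 : p = g q) (e2 : q = g' p) (n : ℕ) :
    ‖(it K T T' n).2‖ ≤ u ∧ ‖(it K T T' (n + 1)).1‖ ≤ u ∧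
    ‖(it K T T' n).2 - q‖ ≤ u ^ (n + 1) + 4 * (B * u ^ K) ∧
    ‖(it K T T' (n + 1)).1 - p‖ ≤ u ^ (n + 1) + 4 * (B * u ^ K) := by
  have hu8 : u ≤ 1 / 8 := by nlinarith
  have hu1' : u ≤ 1 := by linarith
  obtain ⟨a1, -, -, -⟩ := tg_bounds hK hB hu hw huw hu1 huδ hT hw1
  obtain ⟨b1, -, -, -⟩ := tg_bounds hK hB hu hw huw hu1 huδ hT' hw1'
  have hE0 : 0 ≤ B * u ^ K := by positivity
  set E := B * u ^ K with hE
  have sg : ∀ Q, ‖Q‖ ≤ u → ‖gr K T Q - p‖ ≤ u / 2 * ‖Q - q‖ + E := by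
    intro Q hQ
    have h1 := gr_sub_le (K := K) (by omega) hw hw1 (hQ.trans hu1') (hq.trans hu1')
    have h2 := hT.grad q (hq.trans_lt huδ)
    have h3 : B * ‖q‖ ^ K ≤ E :=
      mul_le_mul_of_nonneg_left (pow_le_pow_left₀ (norm_nonneg _) hq _) hB
    have h4 : ‖gr K T Q - p‖ ≤ ‖gr K T Q - gr K T q‖ + ‖g q - gr K T q‖ := by
      have := norm_sub_le (gr K T Q - gr K T q) (g q - gr K T q)
      have e3 : gr K T Q - gr K T q - (g q - gr K T q) = gr K T Q - g q := by abel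
      rw [e3] at this
      rwa [e1]
    have h5 : ((K : ℝ) + 1) ^ 3 * w = u / 2 := by rw [huw]; ring
    rw [h5] at h1
    linarith
  have sg' : ∀ P, ‖P‖ ≤ u → ‖gr K T' P - q‖ ≤ u / 2 * ‖P - p‖ + E := by
    intro P hP
    have h1 := gr_sub_le (K := K) (by omega) hw hw1' (hP.trans hu1') (hp.trans hu1')
    have h2 := hT'.grad p (hp.trans_lt huδ)
    have h3 : B * ‖p‖ ^ K ≤ E :=
      mul_le_mul_of_nonneg_left (pow_le_pow_left₀ (norm_nonneg _) hp _) hB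
    have h4 : ‖gr K T' P - q‖ ≤ ‖gr K T' P - gr K T' p‖ + ‖g' p - gr K T' p‖ := by
      have := norm_sub_le (gr K T' P - gr K T' p) (g' p - gr K T' p)
      have e3 : gr K T' P - gr K T' p - (g' p - gr K T' p) = gr K T' P - g' p := by abel
      rw [e3] at this
      rw [← e2] at this ⊢
      exact this
    have h5 : ((K : ℝ) + 1) ^ 3 * w = u / 2 := by rw [huw]; ring
    rw [h5] at h1
    linarith
  induction n with
  | zero =>
    have h0 : (it K T T' 0).2 = 0 := rfl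
    have h1 := sg 0 (by rw [norm_zero]; exact hu)
    have h2 : (it K T T' (0 + 1)).1 = gr K T 0 := rfl
    rw [h0, h2]
    refine ⟨by rw [norm_zero]; exact hu, (a1 0 (by rw [norm_zero]; exact hu)).trans
      (by linarith), ?_, ?_⟩
    · rw [zero_sub, norm_neg, zero_add, pow_one]
      linarith
    · rw [zero_sub, norm_neg] at h1
      rw [zero_add, pow_one]
      have h3 : u / 2 * ‖q‖ ≤ 1 * u := mul_le_mul (by linarith) hq (norm_nonneg _) zero_le_one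
      linarith
  | succ n ih =>
    obtain ⟨i1, i2, i3, i4⟩ := ih
    have h1 : (it K T T' (n + 1)).2 = gr K T' (it K T T' (n + 1)).1 := rfl
    have h2 : (it K T T' (n + 1 + 1)).1 = gr K T (it K T T' (n + 1)).2 := rfl
    have h3 := sg' _ i2
    have hpn : 0 ≤ u ^ (n + 1) := pow_nonneg hu _
    have h4 : ‖(it K T T' (n + 1)).2‖ ≤ u := by
      rw [h1]; exact (b1 _ i2).trans (by linarith)
    have h5 : ‖(it K T T' (n + 1)).2 - q‖ ≤ u ^ (n + 1 + 1) + 4 * E := by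
      rw [h1, pow_succ]
      have h6 : u / 2 * ‖(it K T T' (n + 1)).1 - p‖ ≤ u / 2 * (u ^ (n + 1) + 4 * E) :=
        mul_le_mul_of_nonneg_left i4 (by linarith)
      have h7 : u / 2 * (u ^ (n + 1) + 4 * E) ≤ u ^ (n + 1) * u + E := by
        have h8 : u * E ≤ 1 / 8 * E := mul_le_mul_of_nonneg_right hu8 hE0
        have h9 : 0 ≤ u ^ (n + 1) * u := mul_nonneg hpn hu
        nlinarith
      linarith
    have h10 := sg _ h4
    refine ⟨h4, by rw [h2]; exact (a1 _ h4).trans (by linarith), h5, ?_⟩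
    rw [h2]
    have h11 : u / 2 * ‖(it K T T' (n + 1)).2 - q‖ ≤ u / 2 * (u ^ (n + 1 + 1) + 4 * E) :=
      mul_le_mul_of_nonneg_left h5 (by linarith)
    have h12 : 0 ≤ u ^ (n + 1 + 1) := pow_nonneg hu _
    have h13 : u / 2 * (u ^ (n + 1 + 1) + 4 * E) ≤ u ^ (n + 1 + 1) + E := by
      have h8 : u * E ≤ 1 / 8 * E := mul_le_mul_of_nonneg_right hu8 hE0
      have h9 : u * u ^ (n + 1 + 1) ≤ 1 / 8 * u ^ (n + 1 + 1) :=
        mul_le_mul_of_nonneg_right hu8 h12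
      nlinarith
    linarith

/-- comparison of the values -/
theorem val_close {K : ℕ} {B δ u m θ V : ℝ} (hB : 0 ≤ B) (hu1 : u ≤ 1) (huδ : u < δ)
    (hV : u ^ (K + 1) ≤ V) {F : (Fin 2 → ℝ) → ℝ} {A : ℕ × ℕ → ℝ} {Z z : Fin 2 → ℝ} (hm : 0 ≤ m)
    (hA : ∀ a, 1 ≤ len a → len a ≤ K → |A a| ≤ m)
    (hF : ∀ z, ‖z‖ < δ → |F z - ev K A z| ≤ B * ‖z‖ ^ (K + 1))
    (hZ : ‖Z‖ ≤ u) (hz : ‖z‖ ≤ u) (hZz : ‖Z - z‖ ≤ θ) :
    |ev K A Z - F z| ≤ ((K : ℝ) + 1) ^ 3 * m * θ + B * V := by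
  have h1 := ev_sub_le (K := K) le_rfl hm hA (hZ.trans hu1) (hz.trans hu1)
  have h2 := hF z (hz.trans_lt huδ)
  have h3 : B * ‖z‖ ^ (K + 1) ≤ B * V :=
    mul_le_mul_of_nonneg_left ((pow_le_pow_left₀ (norm_nonneg _) hz _).trans hV) hB
  have h4 : |ev K A Z - F z| ≤ |ev K A Z - ev K A z| + |F z - ev K A z| := by
    have := abs_sub (ev K A Z - ev K A z) (F z - ev K A z)
    have e3 : ev K A Z - ev K A z - (F z - ev K A z) = ev K A Z - F z := by ring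
    rwa [e3] at this
  have h5 : ((K : ℝ) + 1) ^ 3 * m * ‖Z - z‖ ≤ ((K : ℝ) + 1) ^ 3 * m * θ :=
    mul_le_mul_of_nonneg_left hZz (by positivity)
  linarith

/-- comparison of the Hessians -/
theorem he_close {K : ℕ} (hK : 2 ≤ K) {B δ u w θ V : ℝ} (hB : 0 ≤ B) (hu1 : u ≤ 1)
    (huδ : u < δ) (hV : u ^ (K - 1) ≤ V) {A : ℕ × ℕ → ℝ} {G : (Fin 2 → ℝ) → Fin 2 → Fin 2 → ℝ}
    {Z z : Fin 2 → ℝ} (hw : 0 ≤ w) (hNw : ((K : ℝ) + 1) ^ 3 * w ≤ 1)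
    (hA : ∀ a, 1 ≤ len a → len a ≤ K → |A a| ≤ w)
    (hG : ∀ z, ‖z‖ < δ → ∀ i j, |G z i j - he K A z i j| ≤ B * ‖z‖ ^ (K - 1))
    (hZ : ‖Z‖ ≤ u) (hz : ‖z‖ ≤ u) (hZz : ‖Z - z‖ ≤ θ) (i j : Fin 2) :
    |he K A Z i j - G z i j| ≤ θ + B * V := by
  have h1 := he_sub_le (K := K) hK hw hA (hZ.trans hu1) (hz.trans hu1) i j
  have h2 := hG z (hz.trans_lt huδ) i j
  have h3 : B * ‖z‖ ^ (K - 1) ≤ B * V :=
    mul_le_mul_of_nonneg_left ((pow_le_pow_left₀ (norm_nonneg _) hz _).trans hV) hB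
  have h4 : |he K A Z i j - G z i j| ≤ |he K A Z i j - he K A z i j|
      + |G z i j - he K A z i j| := by
    have := abs_sub (he K A Z i j - he K A z i j) (G z i j - he K A z i j)
    have e3 : he K A Z i j - he K A z i j - (G z i j - he K A z i j)
        = he K A Z i j - G z i j := by ring
    rwa [e3] at this
  have h5 : ((K : ℝ) + 1) ^ 3 * w * ‖Z - z‖ ≤ 1 * θ :=
    mul_le_mul hNw hZz (norm_nonneg _) zero_le_one
  linarith

/-- comparison of the scalar products -/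
theorem pq_close {u θ : ℝ} (hu0 : 0 ≤ u) (hu8 : u ≤ 1 / 8) {P Q p q : Fin 2 → ℝ}
    (hP : ‖P‖ ≤ u) (hq : ‖q‖ ≤ u) (hQθ : ‖Q - q‖ ≤ θ) (hPθ : ‖P - p‖ ≤ θ) :
    |(P 0 * Q 0 + P 1 * Q 1) - (p 0 * q 0 + p 1 * q 1)| ≤ θ := by
  have hθ0 : 0 ≤ θ := (norm_nonneg _).trans hQθ
  have h1 : ∀ i, |P i * Q i - p i * q i| ≤ 2 * (u * θ) := by
    intro i
    have e3 : P i * Q i - p i * q i = P i * (Q i - q i) + (P i - p i) * q i := by ring
    rw [e3]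
    refine (abs_add_le _ _).trans ?_
    rw [abs_mul, abs_mul]
    have h2 : |P i| * |Q i - q i| ≤ u * θ := mul_le_mul ((norm_le_pi_norm P i).trans hP)
      ((norm_le_pi_norm (Q - q) i).trans hQθ) (abs_nonneg _) hu0
    have h3 : |P i - p i| * |q i| ≤ θ * u := mul_le_mul
      ((norm_le_pi_norm (P - p) i).trans hPθ) ((norm_le_pi_norm q i).trans hq)
      (abs_nonneg _) hθ0
    linarith
  have h2 := abs_le.1 (h1 0)
  have h3 := abs_le.1 (h1 1)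
  have h4 : u * θ ≤ 1 / 8 * θ := mul_le_mul_of_nonneg_right hu8 hθ0
  exact abs_le.2 ⟨by linarith [h2.1, h3.1], by linarith [h2.2, h3.2]⟩

/-- comparison of the logarithms -/
theorem log_close {K : ℕ} {B u d V : ℝ} (hB : 0 ≤ B) (hu0 : 0 ≤ u)
    (hu1 : (B + 1) * u ≤ 1 / 8) (hV : u ^ (K + 1) ≤ V) {M M' H H' : Fin 2 → Fin 2 → ℝ}
    (hM : ∀ i j, |M i j| ≤ 1 / 8) (hM' : ∀ i j, |M' i j| ≤ 1 / 8)
    (hH : ∀ i j, |H i j| ≤ (B + 1) * u) (hH' : ∀ i j, |H' i j| ≤ (B + 1) * u)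
    (h1 : ∀ i j, |M i j - H i j| ≤ d) (h2 : ∀ i j, |M' i j - H' i j| ≤ d) :
    |ml K (lo M M') + Real.log (1 - lo H H')| ≤ K * (24 * d) + 2 * ((B + 1) ^ (K + 1) * V) := by
  have hlo := lo_sub_le (fun i j => (hM i j).trans (by norm_num))
    (fun i j => (hM' i j).trans (by norm_num)) (fun i j => (hH i j).trans (by linarith))
    (fun i j => (hH' i j).trans (by linarith)) h1 h2
  have hBu0 : 0 ≤ (B + 1) * u := by positivity
  have hL' : |lo H H'| ≤ 8 * ((B + 1) * u) ^ 2 := lo_abs_le (by linarith) hH hH'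
  have hL2 : |lo H H'| ≤ (B + 1) * u := hL'.trans (by nlinarith)
  have hL : |lo M M'| ≤ 1 := (lo_abs_le (by norm_num) hM hM').trans (by norm_num)
  refine (ml_sub_le (K := K) hL (hL2.trans (by linarith))).trans ?_
  have t7 : |lo H H'| ^ (K + 1) ≤ (B + 1) ^ (K + 1) * V := by
    have h1 : |lo H H'| ^ (K + 1) ≤ ((B + 1) * u) ^ (K + 1) :=
      pow_le_pow_left₀ (abs_nonneg _) hL2 _
    rw [mul_pow] at h1
    exact h1.trans (mul_le_mul_of_nonneg_left hV (by positivity))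
  have t8 : (K : ℝ) * |lo M M' - lo H H'| ≤ K * (24 * d) :=
    mul_le_mul_of_nonneg_left hlo (Nat.cast_nonneg K)
  linarith

/-- the constant -/
noncomputable def Cc (K : ℕ) (B h : ℝ) : ℝ :=
  2 * (((K : ℝ) + 1) ^ 3 * B * (1 + 4 * B) + B) + |h| * (2 * ((1 + 4 * B) + B) + (1 + 4 * B))
    + (24 * K * ((1 + 4 * B) + B) + 2 * (B + 1) ^ (K + 1))

theorem Cc_pos {K : ℕ} {B : ℝ} (hB : 0 ≤ B) (h : ℝ) : 0 < Cc K B h := by
  have hK0 : (0 : ℝ) ≤ K := Nat.cast_nonneg K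
  have h1 : 0 < (B + 1) ^ (K + 1) := by positivity
  have h2 : 0 ≤ 2 * (((K : ℝ) + 1) ^ 3 * B * (1 + 4 * B) + B) := by positivity
  have h3 : 0 ≤ |h| * (2 * ((1 + 4 * B) + B) + (1 + 4 * B)) := by positivity
  have h4 : 0 ≤ 24 * K * ((1 + 4 * B) + B) := by positivity
  unfold Cc
  linarith

/-- the sum of the errors -/
theorem FK_close {K : ℕ} {B V θ h : ℝ} (hθ : θ = (1 + 4 * B) * V)
    {T J T' J' : ℕ × ℕ → ℝ} {P Q p q : Fin 2 → ℝ} {x x' s s' l : ℝ}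
    (t1 : |ev K J Q - x| ≤ ((K : ℝ) + 1) ^ 3 * B * θ + B * V)
    (t2 : |ev K J' P - x'| ≤ ((K : ℝ) + 1) ^ 3 * B * θ + B * V)
    (t3 : |ev K T Q - s| ≤ θ + B * V) (t4 : |ev K T' P - s'| ≤ θ + B * V)
    (t5 : |(P 0 * Q 0 + P 1 * Q 1) - (p 0 * q 0 + p 1 * q 1)| ≤ θ)
    (t6 : |ml K (lo (he K T Q) (he K T' P)) + l|
      ≤ K * (24 * (θ + B * V)) + 2 * ((B + 1) ^ (K + 1) * V))
    (hf : x + x' - h * (s + s' - (p 0 * q 0 + p 1 * q 1)) = l) :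
    |FK K h T J T' J' P Q| ≤ Cc K B h * V := by
  have key : FK K h T J T' J' P Q
      = (ev K J Q - x) + (ev K J' P - x')
        - h * ((ev K T Q - s) + (ev K T' P - s')
          - ((P 0 * Q 0 + P 1 * Q 1) - (p 0 * q 0 + p 1 * q 1)))
        + (ml K (lo (he K T Q) (he K T' P)) + l) := by
    unfold FK
    rw [smul_eq_mul, ← hf]
    ring
  rw [key]
  have s1 : |(ev K T Q - s) + (ev K T' P - s')
      - ((P 0 * Q 0 + P 1 * Q 1) - (p 0 * q 0 + p 1 * q 1))|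
      ≤ 2 * (θ + B * V) + θ := by
    have h1 := abs_le.1 t3
    have h2 := abs_le.1 t4
    have h3 := abs_le.1 t5
    exact abs_le.2 ⟨by linarith [h1.1, h2.1, h3.2], by linarith [h1.2, h2.2, h3.1]⟩
  have s2 : |h * ((ev K T Q - s) + (ev K T' P - s')
      - ((P 0 * Q 0 + P 1 * Q 1) - (p 0 * q 0 + p 1 * q 1)))|
      ≤ |h| * (2 * (θ + B * V) + θ) := by
    rw [abs_mul]; exact mul_le_mul_of_nonneg_left s1 (abs_nonneg _)
  have u1 := abs_le.1 t1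
  have u2 := abs_le.1 t2
  have u3 := abs_le.1 s2
  have u4 := abs_le.1 t6
  have eV : Cc K B h * V = 2 * (((K : ℝ) + 1) ^ 3 * B * θ + B * V)
      + |h| * (2 * (θ + B * V) + θ)
      + (K * (24 * (θ + B * V)) + 2 * ((B + 1) ^ (K + 1) * V)) := by
    unfold Cc
    rw [hθ]
    ring
  rw [eV]
  exact abs_le.2 ⟨by linarith [u1.1, u2.1, u3.2, u4.1], by linarith [u1.2, u2.2, u3.1, u4.2]⟩

/-- the estimate at one pair of leaves -/
theorem EK_le {K : ℕ} (hK : 2 ≤ K) {B δ u w : ℝ} (hB : 0 ≤ B) (hu0 : 0 ≤ u) (hw : 0 ≤ w)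
    (huw : u = 2 * ((K : ℝ) + 1) ^ 3 * w) (hu1 : (B + 1) * u ≤ 1 / 8) (huδ : u < δ) (h : ℝ)
    {f f' X X' : (Fin 2 → ℝ) → ℝ} {g g' : (Fin 2 → ℝ) → Fin 2 → ℝ}
    {H H' : (Fin 2 → ℝ) → Fin 2 → Fin 2 → ℝ} {T T' J J' : ℕ × ℕ → ℝ}
    (hT : TG K B δ f g H T) (hT' : TG K B δ f' g' H' T') (hX : TB K B δ X J)
    (hX' : TB K B δ X' J') (hJ : ∀ a, len a ≤ K → |J a| ≤ B ∧ |J' a| ≤ B)
    (hform : ∀ q p, ‖q‖ < δ → ‖p‖ < δ → p = g q → q = g' p →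
      X q + X' p - h * (f q + f' p - (p 0 * q 0 + p 1 * q 1)) = Real.log (1 - lo (H q) (H' p)))
    (hw1 : ∀ a, 1 ≤ len a → len a ≤ K → |T a| ≤ w)
    (hw1' : ∀ a, 1 ≤ len a → len a ≤ K → |T' a| ≤ w) :
    |EK K h T J T' J'| ≤ Cc K B h * u ^ (K - 1) := by
  have hu8 : u ≤ 1 / 8 := by nlinarith
  have hu1' : u ≤ 1 := by linarith
  obtain ⟨a1, a2, a3, a4⟩ := tg_bounds hK hB hu0 hw huw hu1 huδ hT hw1
  obtain ⟨b1, b2, b3, b4⟩ := tg_bounds hK hB hu0 hw huw hu1 huδ hT' hw1'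
  obtain ⟨q, p, hq, hp, e1, e2⟩ := exists_inter hu0 a2 b2 a4 b4
  have hcl := it_close hK hB hu0 hw huw hu1 huδ hT hT' hw1 hw1' hq hp e1 e2
  have hN2 : ((K : ℝ) + 1) ^ 3 * w = u / 2 := by rw [huw]; ring
  have hV0 : 0 ≤ u ^ (K - 1) := pow_nonneg hu0 _
  have hpw : ∀ m, K - 1 ≤ m → u ^ m ≤ u ^ (K - 1) := fun m hm =>
    pow_le_pow_of_le_one hu0 hu1' hm
  set V : ℝ := u ^ (K - 1) with hV
  have hθ0 : 0 ≤ (1 + 4 * B) * V := by positivity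
  have hBV : B * u ^ K ≤ B * V := mul_le_mul_of_nonneg_left (hpw K (by omega)) hB
  have hQu : ‖(it K T T' K).2‖ ≤ u := (hcl K).1
  have hQθ : ‖(it K T T' K).2 - q‖ ≤ (1 + 4 * B) * V := by
    have h1 := (hcl K).2.2.1
    have h2 := hpw (K + 1) (by omega)
    linarith
  obtain ⟨m, hm⟩ : ∃ m, K = m + 1 := ⟨K - 1, by omega⟩
  have hPu : ‖(it K T T' K).1‖ ≤ u := by
    have := (hcl m).2.1
    rwa [← hm] at this
  have hPθ : ‖(it K T T' K).1 - p‖ ≤ (1 + 4 * B) * V := by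
    have h1 := (hcl m).2.2.2
    rw [← hm] at h1
    have h2 := hpw K (by omega)
    linarith
  have hw2 : ((K : ℝ) + 1) ^ 3 * w * ((1 + 4 * B) * V) ≤ (1 + 4 * B) * V := by
    rw [hN2]
    have := mul_le_mul_of_nonneg_right (show u / 2 ≤ 1 by linarith) hθ0
    linarith
  have t1 := val_close hB hu1' huδ (hpw (K + 1) (by omega)) hB (fun a _ h2 => (hJ a h2).1)
    hX.val hQu hq hQθ
  have t2 := val_close hB hu1' huδ (hpw (K + 1) (by omega)) hB (fun a _ h2 => (hJ a h2).2)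
    hX'.val hPu hp hPθ
  have t3 := val_close hB hu1' huδ (hpw (K + 1) (by omega)) hw hw1 hT.val hQu hq hQθ
  have t4 := val_close hB hu1' huδ (hpw (K + 1) (by omega)) hw hw1' hT'.val hPu hp hPθ
  have t5 := pq_close hu0 hu8 hPu hq hQθ hPθ
  have hNw : ((K : ℝ) + 1) ^ 3 * w ≤ 1 := by rw [hN2]; linarith
  have m1 := he_close hK hB hu1' huδ le_rfl hw hNw hw1 hT.hess hQu hq hQθ
  have m2 := he_close hK hB hu1' huδ le_rfl hw hNw hw1' hT'.hess hPu hp hPθ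
  have m3 : ∀ i j, |he K T (it K T T' K).2 i j| ≤ 1 / 8 := fun i j => by
    have h2 := he_le (K := K) hK hw hw1 (hQu.trans hu1') i j
    rw [hN2] at h2
    linarith
  have m4 : ∀ i j, |he K T' (it K T T' K).1 i j| ≤ 1 / 8 := fun i j => by
    have h2 := he_le (K := K) hK hw hw1' (hPu.trans hu1') i j
    rw [hN2] at h2
    linarith
  have t6 := log_close hB hu0 hu1 (hpw (K + 1) (by omega)) m3 m4 (a3 q hq) (b3 p hp) m1 m2
  unfold EK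
  exact FK_close rfl t1 t2 (t3.trans (by linarith)) (t4.trans (by linarith)) t5 t6
    (hform q p (hq.trans_lt huδ) (hp.trans_lt huδ) e1 e2)

/-- **OUT1, core**: the truncated product formula is small -/
theorem core {K : ℕ} (hK : 2 ≤ K) {B δ : ℝ} (hB : 0 ≤ B) (hδ : 0 < δ) (h : ℝ) :
    ∃ C w0 : ℝ, 0 < C ∧ 0 < w0 ∧ ∀ (f f' X X' : (Fin 2 → ℝ) → ℝ)
      (g g' : (Fin 2 → ℝ) → Fin 2 → ℝ) (H H' : (Fin 2 → ℝ) → Fin 2 → Fin 2 → ℝ)
      (T T' J J' : ℕ × ℕ → ℝ), TG K B δ f g H T → TG K B δ f' g' H' T' → TB K B δ X J →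
      TB K B δ X' J' → (∀ a, len a ≤ K → |J a| ≤ B ∧ |J' a| ≤ B) →
      (∀ q p, ‖q‖ < δ → ‖p‖ < δ → p = g q → q = g' p →
        X q + X' p - h * (f q + f' p - (p 0 * q 0 + p 1 * q 1))
          = Real.log (1 - lo (H q) (H' p))) →
      ∀ w, 0 ≤ w → w ≤ w0 →
      (∀ a, 1 ≤ len a → len a ≤ K → |T a| ≤ w ∧ |T' a| ≤ w) →
      |EK K h T J T' J'| ≤ C * w ^ (K - 1) := by
  set N : ℝ := ((K : ℝ) + 1) ^ 3 with hN
  have hN1 : 1 ≤ N := one_le_pow₀ (by linarith [Nat.cast_nonneg (α := ℝ) K])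
  have hCp := Cc_pos (K := K) hB h
  refine ⟨Cc K B h * (2 * N) ^ (K - 1), min (1 / (16 * N * (B + 1))) (δ / (4 * N)),
    by positivity, by positivity, ?_⟩
  intro f f' X X' g g' H H' T T' J J' hT hT' hX hX' hJ hform w hw hw0 hTw
  have hu0 : 0 ≤ 2 * N * w := by positivity
  have hu1 : (B + 1) * (2 * N * w) ≤ 1 / 8 := by
    have h1 := hw0.trans (min_le_left _ _)
    rw [le_div_iff₀ (by positivity)] at h1
    linarith
  have huδ : 2 * N * w < δ := by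
    have h1 := hw0.trans (min_le_right _ _)
    rw [le_div_iff₀ (by positivity)] at h1
    linarith
  have h2 := EK_le hK hB hu0 hw rfl hu1 huδ h hT hT' hX hX' hJ hform
    (fun a h1 h2 => (hTw a h1 h2).1) (fun a h1 h2 => (hTw a h1 h2).2)
  rw [mul_pow (2 * N) w] at h2
  linarith

end Vale.Agent.P207.N3.H578
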