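import Vale.Agent.P207.N3.H391.Jet2
import Vale.Agent.P207.N3.H391.PF
import Vale.Agent.P207.N3.H578.Core

/-!
# P207, line N3, package P3D (OUT1): Taylor bounds for smooth functions on the plane
-/

open Set Filter Topology Metric MeasureTheory InnerProductSpace
open scoped ContDiff RealInnerProductSpace Gradient

noncomputable section

namespace Vale.Agent.P207.N3.H578

open H254 Jet

/-- coordinates -/
def tE : (Fin 2 → ℝ) ≃L[ℝ] E2 := (EuclideanSpace.equiv (Fin 2) ℝ).symm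

theorem tE_apply (q : Fin 2 → ℝ) (i : Fin 2) : tE q i = q i := rfl

theorem tE_norm_le (q : Fin 2 → ℝ) : ‖tE q‖ ≤ 2 * ‖q‖ := by
  rw [EuclideanSpace.norm_eq]
  refine Real.sqrt_le_iff.2 ⟨by positivity, ?_⟩
  rw [Fin.sum_univ_two, tE_apply, tE_apply]
  have h0 := pow_le_pow_left₀ (norm_nonneg _) (norm_le_pi_norm q 0) 2
  have h1 := pow_le_pow_left₀ (norm_nonneg _) (norm_le_pi_norm q 1) 2
  have h2 : 0 ≤ ‖q‖ ^ 2 := sq_nonneg _
  nlinarith

/-- the jets as a function of a multi-index -/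
def Tj (F : E2 → ℝ) : ℕ × ℕ → ℝ := fun a => jet F a.1 a.2

/-- partial derivatives -/
def Dd (i : Fin 2) (F : E2 → ℝ) : E2 → ℝ := if i = 0 then D1 F else D2 F

theorem Dd_zero (F : E2 → ℝ) : Dd 0 F = D1 F := rfl

theorem Dd_one (F : E2 → ℝ) : Dd 1 F = D2 F := by
  unfold Dd
  rw [if_neg (by decide)]

theorem smooth_Dd {F : E2 → ℝ} {q : E2} (h : ContDiffAt ℝ ∞ F q) (i : Fin 2) :
    ContDiffAt ℝ ∞ (Dd i F) q := by
  unfold Dd
  split_ifs
  · exact smooth_D1 h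
  · exact smooth_D2 h

theorem Tj_Dd {F : E2 → ℝ} (h : ContDiffAt ℝ ∞ F 0) (i : Fin 2) :
    Tj (Dd i F) = sh (Tj F) (e i) := by
  funext a
  unfold Tj sh Dd e
  split_ifs
  · rw [jet_D1 h]
    rfl
  · rw [jet_D2]
    rfl

/-- all mixed derivatives of order `m` are bounded by `C` on the ball -/
def MB (F : E2 → ℝ) (ρ C : ℝ) (m : ℕ) : Prop :=
  ∀ i j, i + j = m → ∀ q ∈ ball (0 : E2) ρ, ‖(D1^[i] (D2^[j] F)) q‖ ≤ C

theorem MB_Dd {F : E2 → ℝ} {ρ C : ℝ} {m : ℕ} (hs : ∀ q ∈ ball (0 : E2) ρ, ContDiffAt ℝ ∞ F q)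
    (h : MB F ρ C (m + 1)) (l : Fin 2) : MB (Dd l F) ρ C m := by
  intro i j hij q hq
  unfold Dd
  split_ifs
  · have h3 : (D1^[i] (D2^[j] (D1 F))) q = (D1^[i + 1] (D2^[j] F)) q := by
      rw [Function.iterate_succ_apply]
      exact (D1i_congr (D1_D2i_ev (hs q hq) j) i).self_of_nhds.symm
    rw [h3]
    exact h _ _ (by omega) q hq
  · exact h i (j + 1) (by omega) q hq

theorem sum_tri {M : Type*} [AddCommMonoid M] (K : ℕ) (F : ℕ × ℕ → M) :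
    ∑ a ∈ tri K, F a = ∑ i ∈ Finset.range (K + 1), ∑ j ∈ Finset.range (K + 1 - i), F (i, j) := by
  unfold tri
  rw [Finset.sum_filter, Finset.sum_product]
  refine Finset.sum_congr rfl fun i hi => ?_
  rw [← Finset.sum_filter]
  refine Finset.sum_congr ?_ fun _ _ => rfl
  ext j
  simp only [Finset.mem_filter, Finset.mem_range]
  rw [Finset.mem_range] at hi
  omega

theorem tay_eq (K : ℕ) (c : ℕ → ℕ → ℝ) (q : Fin 2 → ℝ) :
    tay (K + 1) c (tE q) = ev K (fun a => c a.1 a.2) q := by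
  unfold tay ev
  rw [sum_tri]
  refine Finset.sum_congr rfl fun i _ => Finset.sum_congr rfl fun j _ => ?_
  unfold mono fac mon
  simp only [tE_apply, smul_eq_mul]
  ring

/-- Taylor bound in coordinates -/
theorem taylor_ev {F : E2 → ℝ} {ρ C : ℝ} {m : ℕ} (hC : 0 ≤ C)
    (hs : ∀ q ∈ ball (0 : E2) ρ, ContDiffAt ℝ ∞ F q) (h : MB F ρ C (m + 1)) {q : Fin 2 → ℝ}
    (hq : ‖q‖ < ρ / 2) : |F (tE q) - ev m (Tj F) q| ≤ 4 ^ (m + 1) * C * ‖q‖ ^ (m + 1) := by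
  have h1 : tE q ∈ ball (0 : E2) ρ := by
    rw [mem_ball_zero_iff]
    linarith [tE_norm_le q]
  have h2 := taylor_bound (m + 1) hs h (tE q) h1
  rw [tay_eq, Real.norm_eq_abs] at h2
  refine h2.trans ?_
  have h3 : ‖tE q‖ ^ (m + 1) ≤ 2 ^ (m + 1) * ‖q‖ ^ (m + 1) := by
    rw [← mul_pow]
    exact pow_le_pow_left₀ (norm_nonneg _) (tE_norm_le q) _
  have h4 : (4 : ℝ) ^ (m + 1) = 2 ^ (m + 1) * 2 ^ (m + 1) := by
    rw [← mul_pow]; norm_num
  rw [h4]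
  calc (2 : ℝ) ^ (m + 1) * C * ‖tE q‖ ^ (m + 1)
      ≤ 2 ^ (m + 1) * C * (2 ^ (m + 1) * ‖q‖ ^ (m + 1)) :=
        mul_le_mul_of_nonneg_left h3 (by positivity)
    _ = _ := by ring

theorem hasFDeriv_Dd {G : E2 → ℝ} {q : Fin 2 → ℝ} (h : DifferentiableAt ℝ G (tE q)) :
    HasFDerivAt (fun q => G (tE q))
      (∑ j, Dd j G (tE q) • (ContinuousLinearMap.proj j : (Fin 2 → ℝ) →L[ℝ] ℝ)) q := by
  have h1 : HasFDerivAt (fun q : Fin 2 → ℝ => tE q) (tE : (Fin 2 → ℝ) →L[ℝ] E2) q :=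
    (tE : (Fin 2 → ℝ) →L[ℝ] E2).hasFDerivAt
  have h2 := h.hasFDerivAt.comp q h1
  refine h2.congr_fderiv ?_
  ext v
  rw [ContinuousLinearMap.comp_apply, Jet.fderiv_eq]
  rw [Fin.sum_univ_two]
  simp only [_root_.add_apply, _root_.smul_apply,
    ContinuousLinearMap.proj_apply, smul_eq_mul, Dd_zero, Dd_one]
  have e0 : ((tE : (Fin 2 → ℝ) →L[ℝ] E2) v) 0 = v 0 := rfl
  have e3 : ((tE : (Fin 2 → ℝ) →L[ℝ] E2) v) 1 = v 1 := rfl
  rw [e0, e3]
  ring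

/-- the Taylor bounds -/
theorem tg_of {K : ℕ} (hK : 2 ≤ K) {F : E2 → ℝ} {ρ C : ℝ} (hρ : 0 < ρ) (hC : 0 ≤ C)
    (hs : ∀ q ∈ ball (0 : E2) ρ, ContDiffAt ℝ ∞ F q) (hb : MB F ρ C (K + 1)) :
    TG K (4 ^ (K + 1) * C) (ρ / 2) (fun q => F (tE q)) (fun q i => Dd i F (tE q))
      (fun q i j => Dd j (Dd i F) (tE q)) (Tj F) := by
  obtain ⟨k, rfl⟩ : ∃ k, K = k + 2 := ⟨K - 2, by omega⟩
  have h0 : ContDiffAt ℝ ∞ F 0 := hs 0 (mem_ball_self hρ)
  have hm : ∀ {m : ℕ}, m ≤ k + 2 + 1 → ∀ (x : ℝ), 0 ≤ x →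
      (4 : ℝ) ^ m * C * x ≤ 4 ^ (k + 2 + 1) * C * x := by
    intro m hm x hx
    have : (4 : ℝ) ^ m ≤ 4 ^ (k + 2 + 1) := pow_le_pow_right₀ (by norm_num) hm
    gcongr
  have hs1 : ∀ i, ∀ q ∈ ball (0 : E2) ρ, ContDiffAt ℝ ∞ (Dd i F) q := fun i q hq =>
    smooth_Dd (hs q hq) i
  have hb1 : ∀ i, MB (Dd i F) ρ C (k + 2) := fun i => MB_Dd hs hb i
  refine ⟨fun q hq => taylor_ev hC hs hb hq, fun q hq => ?_, fun q hq i j => ?_,
    fun q hq i => ?_⟩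
  · refine (pi_norm_le_iff_of_nonneg (by positivity)).2 fun i => ?_
    have h2 := taylor_ev (m := k + 1) hC (hs1 i) (hb1 i) hq
    rw [Tj_Dd h0] at h2
    rw [Real.norm_eq_abs, Pi.sub_apply]
    unfold gr
    have e : k + 2 - 1 = k + 1 := by omega
    rw [e]
    exact h2.trans (hm (by omega) _ (by positivity))
  · have h2 := taylor_ev (m := k) hC (fun q hq => smooth_Dd (hs1 i q hq) j)
      (MB_Dd (hs1 i) (hb1 i) j) hq
    rw [Tj_Dd (hs1 i 0 (mem_ball_self hρ)), Tj_Dd h0] at h2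
    unfold he
    have e1 : k + 2 - 2 = k := by omega
    have e2 : k + 2 - 1 = k + 1 := by omega
    have e3 : sh (sh (Tj F) (e i)) (e j) = sh (Tj F) (e i + e j) := by
      funext a
      unfold sh
      rw [add_assoc, add_comm (e j)]
    rw [e1, e2, ← e3]
    exact h2.trans (hm (by omega) _ (by positivity))
  · have h1 : tE q ∈ ball (0 : E2) ρ := by
      rw [mem_ball_zero_iff]
      linarith [tE_norm_le q]
    exact hasFDeriv_Dd ((hs1 i _ h1).differentiableAt (by simp))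

theorem tb_of {K : ℕ} {F : E2 → ℝ} {ρ C : ℝ} (hC : 0 ≤ C)
    (hs : ∀ q ∈ ball (0 : E2) ρ, ContDiffAt ℝ ∞ F q) (hb : MB F ρ C (K + 1)) :
    TB K (4 ^ (K + 1) * C) (ρ / 2) (fun q => F (tE q)) (Tj F) :=
  ⟨fun _ hq => taylor_ev hC hs hb hq⟩

theorem MB_of {F : E2 → ℝ} {ρ C : ℝ} {m : ℕ} (hs : ∀ q ∈ ball (0 : E2) ρ, ContDiffAt ℝ ∞ F q)
    (h : ∀ q ∈ ball (0 : E2) ρ, ‖iteratedFDeriv ℝ m F q‖ ≤ C) : MB F ρ C m := by
  intro i j hij q hq
  have := norm_jet_le i j (hs q hq)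
  rw [hij] at this
  exact this.trans (h q hq)

/-! ### gradients and determinants -/

theorem grad_apply (F : E2 → ℝ) (q : E2) (i : Fin 2) : (∇ F q) i = Dd i F q := by
  have h1 : ∀ v : E2, ⟪∇ F q, v⟫ = fderiv ℝ F q v := fun v => by
    unfold gradient
    exact InnerProductSpace.toDual_symm_apply
  have h2 := h1 (EuclideanSpace.single i 1)
  rw [EuclideanSpace.inner_single_right] at h2
  simp only [one_mul, conj_trivial] at h2
  rw [h2]
  fin_cases i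
  · rfl
  · exact (congrFun (Dd_one F) q).symm

theorem inner_tE (q p : Fin 2 → ℝ) : ⟪tE q, tE p⟫ = p 0 * q 0 + p 1 * q 1 := by
  rw [PiLp.inner_apply, Fin.sum_univ_two]
  simp [tE_apply]

theorem fderiv_grad_apply {F : E2 → ℝ} {q : E2} (h : ContDiffAt ℝ ∞ F q) (v : E2) (i : Fin 2) :
    (fderiv ℝ (∇ F) q v) i = v 0 * Dd 0 (Dd i F) q + v 1 * Dd 1 (Dd i F) q := by
  have hd : DifferentiableAt ℝ (∇ F) q := by
    have h1 : ∇ F = fun q => (InnerProductSpace.toDual ℝ E2).symm (fderiv ℝ F q) := rfl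
    rw [h1]
    exact ((InnerProductSpace.toDual ℝ E2).symm.toContinuousLinearEquiv.differentiableAt).comp q
      ((h.fderiv_right (m := ∞) (by norm_cast)).differentiableAt (by simp))
  have h2 : (fderiv ℝ (∇ F) q v) i = fderiv ℝ (fun q => (∇ F q) i) q v := by
    have h3 := ((EuclideanSpace.proj i : E2 →L[ℝ] ℝ).hasFDerivAt.comp q hd.hasFDerivAt).fderiv
    have h4 : fderiv ℝ (fun q => (∇ F q) i) q
        = (EuclideanSpace.proj i : E2 →L[ℝ] ℝ).comp (fderiv ℝ (∇ F) q) := h3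
    rw [h4]
    rfl
  have h5 : (fun q => (∇ F q) i) = Dd i F := by
    funext x
    exact grad_apply F x i
  rw [h2, h5, Jet.fderiv_eq, Dd_zero, Dd_one]
  simp only [smul_eq_mul]

theorem det_eq {A B : E2 →L[ℝ] E2} {M M' : Fin 2 → Fin 2 → ℝ}
    (hA : ∀ (v : E2) (i : Fin 2), (A v) i = v 0 * M i 0 + v 1 * M i 1)
    (hB : ∀ (v : E2) (i : Fin 2), (B v) i = v 0 * M' i 0 + v 1 * M' i 1) :
    ((1 : E2 →L[ℝ] E2) - A ∘L B).det = 1 - lo M M' := by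
  rw [lo_eq, sub_sub_cancel]
  let bs := (EuclideanSpace.basisFun (Fin 2) ℝ).toBasis
  have hm : ∀ (L : E2 →L[ℝ] E2) (i j : Fin 2), LinearMap.toMatrix bs bs (L : E2 →ₗ[ℝ] E2) i j
      = (L (EuclideanSpace.single j 1)) i := by
    intro L i j
    rw [LinearMap.toMatrix_apply]
    simp [bs]
  have e1 : LinearMap.toMatrix bs bs (A : E2 →ₗ[ℝ] E2) = Matrix.of M := by
    ext i j
    rw [hm, hA, Matrix.of_apply]
    fin_cases j <;> simp
  have e2 : LinearMap.toMatrix bs bs (B : E2 →ₗ[ℝ] E2) = Matrix.of M' := by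
    ext i j
    rw [hm, hB, Matrix.of_apply]
    fin_cases j <;> simp
  have e3 : ((1 : E2 →L[ℝ] E2) - A ∘L B).det
      = LinearMap.det ((1 : E2 →ₗ[ℝ] E2) - (A : E2 →ₗ[ℝ] E2) * (B : E2 →ₗ[ℝ] E2)) := rfl
  rw [e3, ← LinearMap.det_toMatrix bs]
  congr 1
  rw [map_sub, LinearMap.toMatrix_mul, LinearMap.toMatrix_one, e1, e2]

end Vale.Agent.P207.N3.H578
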