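import Vale.Agent.P207.N3.H578.Inst

/-!
# P207, line N3, package P3D (OUT1): the finite jet identity over the structure `PF`

The truncated product formula `EK` of `H254`, evaluated at the jets of a pair of leaves `y`, `x`
close to the axes, is `O(w ^ (K - 1))`, `w` = size of the jets `T_a(y)`, `T'_a(x)`, `1 ≤ |a| ≤ K`.
-/

open Set Filter Topology Metric MeasureTheory InnerProductSpace
open scoped ContDiff RealInnerProductSpace Gradient

noncomputable section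

namespace Vale.Agent.P207.N3.H578

open H254 Jet

/-- uniform bounds of finitely many derivatives -/
theorem bound_fam {S : E2 → E2 → ℝ} {r ρ : ℝ} (hρ : ρ < r)
    (hc : ∀ k : ℕ, ContinuousOn (fun z : E2 × E2 => iteratedFDeriv ℝ k (S z.1) z.2)
      (ball 0 r ×ˢ ball 0 r)) (K : ℕ) :
    ∃ C, 0 ≤ C ∧ ∀ m ≤ K, ∀ y ∈ closedBall (0 : E2) ρ, ∀ q ∈ closedBall (0 : E2) ρ,
      ‖iteratedFDeriv ℝ m (S y) q‖ ≤ C := by
  have hcp : IsCompact (closedBall (0 : E2) ρ ×ˢ closedBall (0 : E2) ρ) :=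
    (isCompact_closedBall _ _).prod (isCompact_closedBall _ _)
  have hsub : closedBall (0 : E2) ρ ×ˢ closedBall (0 : E2) ρ ⊆ ball 0 r ×ˢ ball 0 r :=
    prod_mono (closedBall_subset_ball hρ) (closedBall_subset_ball hρ)
  have h1 : ∀ m : ℕ, ∃ C, ∀ z ∈ closedBall (0 : E2) ρ ×ˢ closedBall (0 : E2) ρ,
      ‖iteratedFDeriv ℝ m (S z.1) z.2‖ ≤ C := fun m =>
    hcp.exists_bound_of_continuousOn ((hc m).mono hsub)
  choose C hC using h1
  refine ⟨∑ m ∈ Finset.range (K + 1), |C m|, Finset.sum_nonneg fun _ _ => abs_nonneg _, ?_⟩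
  intro m hm y hy q hq
  refine (hC m (y, q) ⟨hy, hq⟩).trans ((le_abs_self _).trans ?_)
  exact Finset.single_le_sum (f := fun m => |C m|) (fun _ _ => abs_nonneg _)
    (Finset.mem_range.2 (Nat.lt_succ_of_le hm))

/-- **(OUT1)**, the finite jet identity at a pair of leaves -/
theorem out1 (D : PF) {K : ℕ} (hK : 2 ≤ K) : ∃ C w0 r0 : ℝ, 0 < C ∧ 0 < w0 ∧ 0 < r0 ∧
    ∀ y ∈ ball (0 : E2) r0, ∀ x ∈ ball (0 : E2) r0, ∀ w, 0 ≤ w → w ≤ w0 →
      (∀ a, 1 ≤ len a → len a ≤ K → |Tj (D.Y.S y) a| ≤ w ∧ |Tj (D.X.S x) a| ≤ w) →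
      |EK K D.h (Tj (D.Y.S y)) (Tj (D.Y.X y)) (Tj (D.X.S x)) (Tj (D.X.X x))|
        ≤ C * w ^ (K - 1) := by
  set r1 : ℝ := D.δ / 2 with hr1
  have hδ := D.δ_pos
  have hr1p : 0 < r1 := by positivity
  have hr1δ : r1 < D.δ := by rw [hr1]; linarith
  have hY : r1 < D.Y.r := hr1δ.trans_le (D.δ_le_Y.trans D.Y.ρ_le)
  have hX : r1 < D.X.r := hr1δ.trans_le (D.δ_le_X.trans D.X.ρ_le)
  obtain ⟨c1, hc1, b1⟩ := bound_fam hY D.Y.S_cont (K + 1)
  obtain ⟨c2, hc2, b2⟩ := bound_fam hY D.Y.X_cont (K + 1)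
  obtain ⟨c3, hc3, b3⟩ := bound_fam hX D.X.S_cont (K + 1)
  obtain ⟨c4, hc4, b4⟩ := bound_fam hX D.X.X_cont (K + 1)
  set C0 : ℝ := c1 + c2 + c3 + c4 with hC0
  have hC00 : 0 ≤ C0 := by positivity
  set B : ℝ := 4 ^ (K + 1) * C0 with hB
  have hB0 : 0 ≤ B := by positivity
  have hCB : C0 ≤ B := by
    have : (1 : ℝ) ≤ 4 ^ (K + 1) := one_le_pow₀ (by norm_num)
    rw [hB]
    nlinarith
  obtain ⟨C, w0, hC, hw0, hmain⟩ := core hK hB0 (show 0 < r1 / 2 by positivity) D.h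
  refine ⟨C, w0, r1, hC, hw0, hr1p, fun y hy x hx w hw hww hT => ?_⟩
  have hyr : y ∈ ball (0 : E2) D.Y.r := ball_subset_ball hY.le hy
  have hxr : x ∈ ball (0 : E2) D.X.r := ball_subset_ball hX.le hx
  have hyc : y ∈ closedBall (0 : E2) r1 := ball_subset_closedBall hy
  have hxc : x ∈ closedBall (0 : E2) r1 := ball_subset_closedBall hx
  have sm : ∀ {F : E2 → ℝ} {r : ℝ}, r1 < r → ContDiffOn ℝ ∞ F (ball 0 r) →
      ∀ q ∈ ball (0 : E2) r1, ContDiffAt ℝ ∞ F q := fun h1 h2 q hq =>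
    (h2 q (ball_subset_ball h1.le hq)).contDiffAt
      (isOpen_ball.mem_nhds (ball_subset_ball h1.le hq))
  have s1 := sm hY (D.Y.S_smooth y hyr)
  have s2 := sm hY (D.Y.X_smooth y hyr)
  have s3 := sm hX (D.X.S_smooth x hxr)
  have s4 := sm hX (D.X.X_smooth x hxr)
  have m1 : MB (D.Y.S y) r1 C0 (K + 1) := MB_of s1 fun q hq =>
    (b1 _ le_rfl y hyc q (ball_subset_closedBall hq)).trans (by linarith)
  have m2 : MB (D.Y.X y) r1 C0 (K + 1) := MB_of s2 fun q hq =>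
    (b2 _ le_rfl y hyc q (ball_subset_closedBall hq)).trans (by linarith)
  have m3 : MB (D.X.S x) r1 C0 (K + 1) := MB_of s3 fun q hq =>
    (b3 _ le_rfl x hxc q (ball_subset_closedBall hq)).trans (by linarith)
  have m4 : MB (D.X.X x) r1 C0 (K + 1) := MB_of s4 fun q hq =>
    (b4 _ le_rfl x hxc q (ball_subset_closedBall hq)).trans (by linarith)
  have hJ : ∀ a : ℕ × ℕ, len a ≤ K → |Tj (D.Y.X y) a| ≤ B ∧ |Tj (D.X.X x) a| ≤ B := by
    intro a ha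
    have h0 : (0 : E2) ∈ ball (0 : E2) r1 := mem_ball_self hr1p
    have h0c : (0 : E2) ∈ closedBall (0 : E2) r1 := mem_closedBall_self hr1p.le
    have h1 := norm_jet_le a.1 a.2 (s2 0 h0)
    have h2 := norm_jet_le a.1 a.2 (s4 0 h0)
    have h3 := b2 (a.1 + a.2) (by unfold len at ha; omega) y hyc 0 h0c
    have h4 := b4 (a.1 + a.2) (by unfold len at ha; omega) x hxc 0 h0c
    exact ⟨(h1.trans h3).trans (by linarith), (h2.trans h4).trans (by linarith)⟩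
  refine hmain _ _ _ _ _ _ _ _ _ _ _ _ (tg_of hK hr1p hC00 s1 m1) (tg_of hK hr1p hC00 s3 m3)
    (tb_of hC00 s2 m2) (tb_of hC00 s4 m4) hJ ?_ w hw hww hT
  intro q p hq hp e1 e2
  have hqb : tE q ∈ ball (0 : E2) r1 := by
    rw [mem_ball_zero_iff]
    linarith [tE_norm_le q]
  have hpb : tE p ∈ ball (0 : E2) r1 := by
    rw [mem_ball_zero_iff]
    linarith [tE_norm_le p]
  have g1 : tE p = ∇ (D.Y.S y) (tE q) := by
    ext i
    rw [grad_apply, tE_apply, e1]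
  have g2 : tE q = ∇ (D.X.S x) (tE p) := by
    ext i
    rw [grad_apply, tE_apply]
    exact congrFun e2 i
  have h1 := D.prod y (ball_subset_ball hr1δ.le hy) x (ball_subset_ball hr1δ.le hx) (tE q)
    (ball_subset_ball hr1δ.le hqb) (tE p) (ball_subset_ball hr1δ.le hpb) g1 g2
  rw [inner_tE, det_eq (M := fun i j => Dd j (Dd i (D.Y.S y)) (tE q))
    (M' := fun i j => Dd j (Dd i (D.X.S x)) (tE p))
    (fun v i => fderiv_grad_apply (s1 _ hqb) v i)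
    (fun v i => fderiv_grad_apply (s3 _ hpb) v i)] at h1
  exact h1

/-- the first jets of the leaf `y` are the coordinates of `y` -/
theorem Tj_e (F : Half) {y : E2} (hy : y ∈ ball (0 : E2) F.r) (i : Fin 2) :
    Tj (F.S y) (e i) = y i := by
  have h1 : (∇ (F.S y) 0) i = y i := by rw [F.S_grad y hy]
  rw [grad_apply] at h1
  rw [← h1]
  fin_cases i
  · rfl
  · exact (congrFun (Dd_one (F.S y)) 0).symm

/-- **(OUT1)** at two moving points -/
theorem out1_seq (D : PF) {K : ℕ} (hK : 2 ≤ K) {yy xx : ℕ → E2} {σ c : ℝ} (hσ0 : 0 < σ)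
    (hσ1 : σ < 1) (hy : Tendsto yy atTop (𝓝 0)) (hx : Tendsto xx atTop (𝓝 0))
    (hT : ∀ n a, 1 ≤ len a → len a ≤ K → |Tj (D.Y.S (yy n)) a| ≤ c * σ ^ n)
    (hT' : ∀ n a, 1 ≤ len a → len a ≤ K → |Tj (D.X.S (xx n)) a| ≤ c * σ ^ n) :
    ∃ (C : ℝ) (n0 : ℕ), 0 < C ∧ ∀ n ≥ n0, ∀ m ≥ n0,
      |EK K D.h (Tj (D.Y.S (yy n))) (Tj (D.Y.X (yy n))) (Tj (D.X.S (xx m)))
        (Tj (D.X.X (xx m)))| ≤ C * (σ ^ n + σ ^ m) ^ (K - 1) := by
  obtain ⟨C, w0, r0, hC, hw0, hr0, h⟩ := out1 D hK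
  have hc : 0 ≤ c := by
    have h1 := (abs_nonneg _).trans (hT 0 (1, 0) (by decide) (by
      show 1 + 0 ≤ K
      omega))
    rwa [pow_zero, mul_one] at h1
  have e1 : ∀ᶠ n in atTop, yy n ∈ ball (0 : E2) r0 := hy.eventually (ball_mem_nhds _ hr0)
  have e2 : ∀ᶠ n in atTop, xx n ∈ ball (0 : E2) r0 := hx.eventually (ball_mem_nhds _ hr0)
  have e3 : Tendsto (fun n : ℕ => (c + 1) * σ ^ n) atTop (𝓝 ((c + 1) * 0)) :=
    (tendsto_pow_atTop_nhds_zero_of_lt_one hσ0.le hσ1).const_mul _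
  rw [mul_zero] at e3
  have e4 : ∀ᶠ n : ℕ in atTop, (c + 1) * σ ^ n < w0 / 2 :=
    e3.eventually (gt_mem_nhds (by positivity))
  obtain ⟨n0, hn0⟩ := eventually_atTop.1 (e1.and (e2.and e4))
  refine ⟨C * (c + 1) ^ (K - 1), n0, by positivity, fun n hn m hm => ?_⟩
  obtain ⟨a1, -, a3⟩ := hn0 n hn
  obtain ⟨-, b2, b3⟩ := hn0 m hm
  have p1 : 0 < σ ^ n := pow_pos hσ0 n
  have p2 : 0 < σ ^ m := pow_pos hσ0 m
  have h1 := h (yy n) a1 (xx m) b2 ((c + 1) * (σ ^ n + σ ^ m)) (by positivity) (by linarith)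
    (fun a ha1 ha2 => ⟨(hT n a ha1 ha2).trans (by nlinarith), (hT' m a ha1 ha2).trans
      (by nlinarith)⟩)
  rw [mul_pow] at h1
  linarith

end Vale.Agent.P207.N3.H578
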