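import Vale.Agent.P207.N3.H254.Side
import Vale.Agent.P207.N3.H70.NF2
import Vale.Agent.P207.N3.H578.Out1

/-!
# P207, line N3, (OUT2): the interface between the action on the jets and the triangular systems

`Feed H κ ℓ K`: the raw jets `T_a`, `1 ≤ |a| ≤ K + 1`, and `X_a`, `1 ≤ |a| ≤ K`, of the leaves of a
half, and the triangular system which describes their change under `φ`.
-/

open Set Filter Topology Metric Sum
open scoped ContDiff Gradient

noncomputable section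

namespace Vale.Agent.P207.N3.H578

open H254 H70

/-- The length of a label. -/
def llen : Lb → ℕ := Sum.elim len len

@[simp] theorem llen_inl (a : ℕ × ℕ) : llen (inl a) = len a := rfl

@[simp] theorem llen_inr (a : ℕ × ℕ) : llen (inr a) = len a := rfl

/-- The raw jet with a given label. -/
def rj (H : Half) (b : Lb) (y : E2) : ℝ := Sum.elim (Tj (H.S y)) (Tj (H.X y)) b

@[simp] theorem rj_inl (H : Half) (a : ℕ × ℕ) (y : E2) : rj H (inl a) y = Tj (H.S y) a := rfl

@[simp] theorem rj_inr (H : Half) (a : ℕ × ℕ) (y : E2) : rj H (inr a) y = Tj (H.X y) a := rfl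

/-- The feed of a half. -/
structure Feed (H : Half) (κ ℓ : ℝ) (K : ℕ) where
  J : Type
  [fin : Fintype J]
  [dec : DecidableEq J]
  /-- the label of a variable -/
  lab : J → Lb
  lab_inj : Function.Injective lab
  lab_inl : ∀ a, (∃ j, lab j = inl a) ↔ 1 ≤ len a ∧ len a ≤ K + 1
  lab_inr : ∀ a, (∃ j, lab j = inr a) ↔ 1 ≤ len a ∧ len a ≤ K
  S : TriSys J
  /-- the weights -/
  wt : ∀ j, |S.θ j| = Real.exp (-(wtl κ ℓ (lab j)))
  base : ∀ i j, lab j = inl (e i) → j ∈ S.base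
  ord_inl : ∀ j a, lab j = inl a → 2 ≤ len a → 2 ≤ S.ord j
  D_inl : ∀ j a, lab j = inl a → 2 ≤ len a → ∀ k ∈ S.D j, ∃ b, lab k = inl b ∧ len b < len a
  D_base : ∀ i j, lab j = inl (e i) → ∀ k ∈ S.D j, ∃ b, lab k = inl b
  ℓ_inl : ∀ j a, lab j = inl a → ∀ k, S.ℓ j k ≠ 0 → ∃ b, lab k = inl b
  D_inr : ∀ j a, lab j = inr a → ∀ k ∈ S.D j,
    (∃ b, lab k = inl b ∧ len b ≤ len a) ∨ ∃ b, lab k = inr b ∧ len b < len a
  /-- the action of `φ` on the raw jets -/
  act : ∀ᶠ y in 𝓝 (0 : E2), (fun j => rj H (lab j) (H.M y)) = S.F fun j => rj H (lab j) y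

attribute [instance] Feed.fin Feed.dec

namespace Feed

variable {H : Half} {κ ℓ : ℝ} {K : ℕ} (F : Feed H κ ℓ K)

theorem one_le_llen (j : F.J) : 1 ≤ llen (F.lab j) := by
  cases h : F.lab j with
  | inl a => exact ((F.lab_inl a).1 ⟨j, h⟩).1
  | inr a => exact ((F.lab_inr a).1 ⟨j, h⟩).1

theorem exists_lab {b : Lb} (h1 : 1 ≤ llen b) (h2 : llen b ≤ K) : ∃ j, F.lab j = b := by
  cases b with
  | inl a => exact (F.lab_inl a).2 ⟨h1, h2.trans (Nat.le_succ K)⟩
  | inr a => exact (F.lab_inr a).2 ⟨h1, h2⟩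

end Feed

end Vale.Agent.P207.N3.H578
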