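import Vale.Agent.P207.N3.H70.NF2

/-!
# P207, line N3, (OUT2): Taylor polynomials with few variables, substitution of flat errors
-/

open Set Filter Topology Metric MvPolynomial
open scoped ContDiff

noncomputable section

namespace Vale.Agent.P207.N3.H578

open H70

variable {J : Type} [Fintype J]

/-- The Taylor polynomial of a function which depends on few variables. -/
theorem exists_poly_dep [DecidableEq J] (K : ℕ) {D : Set J} {o : ℕ} {h : (J → ℝ) → ℝ}
    (hh : IsFlat o h) (hdep : DependsOn h D) :
    ∃ p : MvPolynomial J ℝ, p ∈ supported ℝ D ∧ (∀ α ∈ p.support, o ≤ α.degree) ∧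
      IsFlat K fun v => h v - eval v p := by
  classical
  obtain ⟨p, _, hf0⟩ := exists_poly (max K o) hh.1
  set π : (J → ℝ) → J → ℝ := fun v j => if j ∈ D then v j else 0 with hπ
  have hπf : ∀ j, IsFlat 1 fun v => π v j := by
    intro j
    by_cases hj : j ∈ D
    · exact (IsFlat.coord j).congr fun v => by rw [hπ]; simp [hj]
    · exact (IsFlat.zero 1).congr fun v => by rw [hπ]; simp [hj]
  set g : J → MvPolynomial J ℝ := fun j => if j ∈ D then X j else 0 with hg
  set p' : MvPolynomial J ℝ := aeval g p with hp'
  have hgs : ∀ j, g j ∈ supported ℝ D := by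
    intro j
    by_cases hj : j ∈ D
    · rw [hg]
      simp only [hj, if_true]
      exact Algebra.subset_adjoin ⟨j, hj, rfl⟩
    · rw [hg]
      simp only [hj, if_false]
      exact Subalgebra.zero_mem _
  have hp's : p' ∈ supported ℝ D := by
    have e1 : (aeval g : MvPolynomial J ℝ →ₐ[ℝ] MvPolynomial J ℝ).range ≤ supported ℝ D := by
      rw [← Algebra.adjoin_range_eq_range_aeval]
      refine Algebra.adjoin_le ?_
      rintro _ ⟨j, rfl⟩
      exact hgs j
    exact e1 ⟨p, rfl⟩
  have hev : ∀ v, eval v p' = eval (π v) p := by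
    intro v
    rw [hp', eval_aeval]
    congr 1
    congr 1
    funext j
    show eval v (g j) = π v j
    rw [hg, hπ]
    by_cases hj : j ∈ D
    · simp [hj]
    · simp [hj]
  have hhπ : ∀ v, h v = h (π v) := by
    intro v
    refine hdep fun i hi => ?_
    rw [hπ]
    simp [hi]
  have hf : IsFlat (max K o) fun v => h v - eval v p' := by
    refine (hf0.comp (w := π) hπf).congr fun v => ?_
    show h v - eval v p' = h (π v) - eval (π v) p
    rw [hev, ← hhπ]
  refine ⟨p', hp's, ?_, hf.mono (le_max_left K o)⟩
  refine mem_Hi.1 (mem_Hi_of_flat ((hh.sub (hf.mono (le_max_right K o))).congr fun v => ?_))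
  ring

theorem contDiff_eval_comp {σ : Type*} (p : MvPolynomial σ ℝ) {u : σ → (J → ℝ) → ℝ}
    (hu : ∀ i, ContDiff ℝ ∞ (u i)) : ContDiff ℝ ∞ fun v => eval (fun i => u i v) p := by
  induction p using MvPolynomial.induction_on with
  | C a => simpa using contDiff_const
  | add p q hp hq => simpa using hp.add hq
  | mul_X p j hp => simpa using hp.mul (hu j)

/-- Substitution of functions which differ by flat functions. -/
theorem flat_subst {σ : Type*} {K : ℕ} (p : MvPolynomial σ ℝ) {u u' : σ → (J → ℝ) → ℝ}
    (hu : ∀ i, ContDiff ℝ ∞ (u i)) (hu' : ∀ i, ContDiff ℝ ∞ (u' i))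
    (h : ∀ i, IsFlat K fun v => u i v - u' i v) :
    IsFlat K fun v => eval (fun i => u i v) p - eval (fun i => u' i v) p := by
  induction p using MvPolynomial.induction_on with
  | C a => exact (IsFlat.zero K).congr fun v => by simp
  | add p q hp hq =>
    refine (hp.add hq).congr fun v => ?_
    rw [map_add, map_add]
    ring
  | mul_X p j hp =>
    refine ((IsFlat.mul_left (hu j) hp).add
      (IsFlat.mul_left (contDiff_eval_comp p hu') (h j))).congr fun v => ?_
    rw [map_mul, map_mul, eval_X, eval_X]
    ring

end Vale.Agent.P207.N3.H578
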