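import Vale.Agent.P207.N3.H578.Feed
import Vale.Agent.P207.N3.H578.FlatSub
import Vale.Agent.P207.N3.H70.Ext3

/-!
# P207, line N3, (OUT2): the corrected jets of a half and their dynamics
-/

open Set Filter Topology Metric Sum
open scoped ContDiff Gradient

noncomputable section

namespace Vale.Agent.P207.N3.H578

open H254 H70 Jet

theorem D1_zero' : D1 (fun _ : E2 => (0 : ℝ)) = fun _ => 0 := by
  funext q
  unfold D1
  rw [fderiv_const_apply]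
  rfl

theorem D2_zero' : D2 (fun _ : E2 => (0 : ℝ)) = fun _ => 0 := by
  funext q
  unfold D2
  rw [fderiv_const_apply]
  rfl

theorem jet_of_zero (i j : ℕ) : jet (fun _ : E2 => (0 : ℝ)) i j = 0 := by
  unfold jet
  have h2 : D2^[j] (fun _ : E2 => (0 : ℝ)) = fun _ => 0 := by
    induction j with
    | zero => rfl
    | succ j ih => rw [Function.iterate_succ_apply', ih, D2_zero']
  have h1 : D1^[i] (fun _ : E2 => (0 : ℝ)) = fun _ => 0 := by
    induction i with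
    | zero => rfl
    | succ i ih => rw [Function.iterate_succ_apply', ih, D1_zero']
  rw [h2, h1]

theorem E2_norm_le (v : E2) : ‖v‖ ≤ |v 0| + |v 1| := by
  rw [EuclideanSpace.norm_eq, Fin.sum_univ_two]
  refine Real.sqrt_le_iff.2 ⟨by positivity, ?_⟩
  rw [Real.norm_eq_abs, Real.norm_eq_abs]
  nlinarith [abs_nonneg (v 0), abs_nonneg (v 1)]

/-- growth of the iterates of the normal form -/
theorem iter_bound {J : Type} [Fintype J] [DecidableEq J] {S : TriSys J} (N : NForm S) {σ : ℝ}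
    (hσ : ∀ j, |S.θ j| < σ) (hσ0 : 0 < σ) :
    ∃ C : ℝ, 0 ≤ C ∧ ∀ v : J → ℝ, ‖v‖ ≤ 1 → ∀ n, ‖(pmap (S.Psi N.res))^[n] v‖ ≤ C * σ ^ n * ‖v‖ := by
  have hok : S.ResOK N.res := fun i => ⟨N.res_supp i, fun α hα => ⟨N.res_mult i α hα, N.res_ord i α hα⟩⟩
  obtain ⟨M, c, τ, T, h1, h2, h3⟩ := exists_iter (Ψ := S.Psi N.res) (θ := S.θ)
    (fun j => hok.ge j) S.θ_ne hσ hσ0 (fun j => hok.hi j)
  have h4 : ∀ j i, ∃ C : ℝ, 0 ≤ C ∧ ∀ v : J → ℝ, ‖v‖ ≤ 1 → |MvPolynomial.eval v (c j i)| ≤ C * ‖v‖ := by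
    intro j i
    obtain ⟨C, hC, hb⟩ := (isFlat_eval (c j i) (mem_Hi.1 (h1 j i))).bound 1
    exact ⟨C, hC, fun v hv => by simpa using hb v hv⟩
  choose B hB0 hB using h4
  have hT : 0 ≤ T := (norm_nonneg (τ 0)).trans (h2 0)
  refine ⟨∑ j, ∑ i, T * B j i, Finset.sum_nonneg fun j _ => Finset.sum_nonneg fun i _ =>
    mul_nonneg hT (hB0 j i), fun v hv n => ?_⟩
  have hs : 0 ≤ σ ^ n := by positivity
  have hC0 : 0 ≤ ∑ j, ∑ i, T * B j i := Finset.sum_nonneg fun j _ => Finset.sum_nonneg fun i _ =>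
    mul_nonneg hT (hB0 j i)
  refine (pi_norm_le_iff_of_nonneg (by positivity)).2 fun j => ?_
  rw [h3 n v j, Real.norm_eq_abs, abs_mul, abs_of_nonneg hs]
  have h5 : |∑ i, τ n j i * MvPolynomial.eval v (c j i)| ≤ (∑ i, T * B j i) * ‖v‖ := by
    refine (Finset.abs_sum_le_sum_abs _ _).trans ?_
    rw [Finset.sum_mul]
    refine Finset.sum_le_sum fun i _ => ?_
    rw [abs_mul]
    have h6 : |τ n j i| ≤ T := ((norm_le_pi_norm (τ n j) i).trans (norm_le_pi_norm (τ n) j)).trans (h2 n)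
    calc |τ n j i| * |MvPolynomial.eval v (c j i)| ≤ T * (B j i * ‖v‖) :=
          mul_le_mul h6 (hB j i v hv) (abs_nonneg _) hT
      _ = T * B j i * ‖v‖ := by ring
  have h7 : (∑ i, T * B j i) ≤ ∑ j, ∑ i, T * B j i :=
    Finset.single_le_sum (f := fun j => ∑ i, T * B j i) (fun j _ => Finset.sum_nonneg fun i _ =>
      mul_nonneg hT (hB0 j i)) (Finset.mem_univ j)
  calc σ ^ n * |∑ i, τ n j i * MvPolynomial.eval v (c j i)|
      ≤ σ ^ n * ((∑ i, T * B j i) * ‖v‖) := mul_le_mul_of_nonneg_left h5 hs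
    _ ≤ σ ^ n * ((∑ j, ∑ i, T * B j i) * ‖v‖) :=
        mul_le_mul_of_nonneg_left (mul_le_mul_of_nonneg_right h7 (norm_nonneg _)) hs
    _ = (∑ j, ∑ i, T * B j i) * σ ^ n * ‖v‖ := by ring

namespace Feed

variable {H : Half} {κ ℓ : ℝ} {K : ℕ} (F : Feed H κ ℓ K)

/-- the normal form -/
def nf : NForm F.S := (TriSys.nf F.S).some

/-- the raw jets -/
def raw (y : E2) : F.J → ℝ := fun j => rj H (F.lab j) y

/-- the corrected jets -/
def v0 (y : E2) : F.J → ℝ := F.nf.Φ (F.raw y)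

/-- the dynamics of the corrected jets -/
def psi : (F.J → ℝ) → F.J → ℝ := pmap (F.S.Psi F.nf.res)

theorem rj_cont (b : Lb) : ContinuousOn (rj H b) (ball 0 H.r) := by
  have hm : MapsTo (fun y : E2 => (y, (0 : E2))) (ball 0 H.r) (ball 0 H.r ×ˢ ball 0 H.r) :=
    fun y hy => ⟨hy, mem_ball_self H.r_pos⟩
  have hc : ContinuousOn (fun y : E2 => (y, (0 : E2))) (ball 0 H.r) :=
    (continuous_id.prodMk continuous_const).continuousOn
  cases b with
  | inl a =>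
    exact (continuousOn_jet (s := ball 0 H.r) H.S_smooth a.1 a.2 (H.S_cont _)).comp hc hm
  | inr a =>
    exact (continuousOn_jet (s := ball 0 H.r) H.X_smooth a.1 a.2 (H.X_cont _)).comp hc hm

theorem rj_zero (b : Lb) : rj H b 0 = 0 := by
  have hb : ball (0 : E2) H.r ∈ 𝓝 (0 : E2) := ball_mem_nhds _ H.r_pos
  cases b with
  | inl a =>
    rw [rj_inl]
    unfold Tj
    rw [jet_congr (g := fun _ => (0 : ℝ)) (by filter_upwards [hb] with q hq using H.S_zero q hq)]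
    exact jet_of_zero _ _
  | inr a =>
    rw [rj_inr]
    unfold Tj
    rw [jet_congr (g := fun _ => (0 : ℝ)) (by filter_upwards [hb] with q hq using H.X_zero q hq)]
    exact jet_of_zero _ _

theorem raw_cont : ContinuousOn F.raw (ball 0 H.r) :=
  continuousOn_pi.2 fun j => rj_cont (F.lab j)

theorem raw_zero : F.raw 0 = 0 := funext fun j => rj_zero (F.lab j)

theorem v0_cont : ContinuousOn F.v0 (ball 0 H.r) :=
  F.nf.Φ_smooth.continuous.comp_continuousOn F.raw_cont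

theorem v0_zero : F.v0 0 = 0 := by
  unfold v0
  rw [raw_zero, F.nf.Φ_zero]

/-- corrected and raw jets -/
theorem raw_eq (y : E2) (j : F.J) : F.raw y j = F.v0 y j - F.nf.R j (F.v0 y) := by
  have := F.nf.Φ_eq (F.raw y) j
  unfold v0
  linarith

theorem v0_base {y : E2} (hy : y ∈ ball (0 : E2) H.r) {j : F.J} {i : Fin 2}
    (hj : F.lab j = inl (e i)) : F.v0 y j = y i := by
  have h1 := F.raw_eq y j
  rw [F.nf.R_base j (F.base i j hj)] at h1
  have h2 : F.raw y j = y i := by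
    unfold raw
    rw [hj, rj_inl, Tj_e H hy i]
  rw [h2] at h1
  simpa using h1.symm

/-- the labels of the base -/
theorem exists_base (hK : 1 ≤ K) (i : Fin 2) : ∃ j, F.lab j = inl (e i) :=
  F.exists_lab (by rw [llen_inl, len_e]) (by rw [llen_inl, len_e]; exact hK)

theorem wtl_ge (hℓ : 0 ≤ ℓ) (hκ : ℓ ≤ κ) {b : Lb} (hb : 1 ≤ llen b) : ℓ ≤ wtl κ ℓ b := by
  have key : ∀ a : ℕ × ℕ, 1 ≤ len a → ℓ ≤ κ * a.1 + ℓ * a.2 := by
    intro a ha
    have h1 : (1 : ℝ) ≤ (a.1 : ℝ) + a.2 := by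
      have : (1 : ℕ) ≤ a.1 + a.2 := ha
      exact_mod_cast this
    have h2 : (0 : ℝ) ≤ a.1 := Nat.cast_nonneg _
    have h3 : (0 : ℝ) ≤ a.2 := Nat.cast_nonneg _
    nlinarith
  cases b with
  | inl a => exact key a hb
  | inr a => exact key a hb

theorem theta_le (hℓ : 0 ≤ ℓ) (hκ : ℓ ≤ κ) (j : F.J) : |F.S.θ j| ≤ Real.exp (-ℓ) := by
  rw [F.wt j]
  have h1 := F.one_le_llen j
  exact Real.exp_le_exp.2 (by linarith [wtl_ge hℓ hκ h1])

/-- **the orbit lemma** -/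
theorem orbit (hK : 1 ≤ K) : ∃ δ > 0, δ ≤ H.ρ ∧ ∀ y ∈ ball (0 : E2) δ,
    ∀ n, H.M^[n] y ∈ ball (0 : E2) H.ρ ∧ F.raw (H.M^[n] y) ∈ ball (0 : F.J → ℝ) (F.S.r / 2) ∧
      F.raw (H.M^[n + 1] y) = F.S.F (F.raw (H.M^[n] y)) := by
  obtain ⟨σ, hσ0, hσ1, hσ⟩ := exists_sigma F.S.θ_lt
  obtain ⟨C, hC0, hC⟩ := iter_bound F.nf hσ hσ0
  -- the neighbourhood of the action
  have e1 : ∀ᶠ y in 𝓝 (0 : E2), F.raw (H.M y) = F.S.F (F.raw y) := F.act
  have e2 : ∀ᶠ y in 𝓝 (0 : E2), F.raw y ∈ ball (0 : F.J → ℝ) (F.S.r / 2) := by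
    have h1 : ContinuousAt F.raw 0 := F.raw_cont.continuousAt (ball_mem_nhds _ H.r_pos)
    have h2 : F.raw 0 ∈ ball (0 : F.J → ℝ) (F.S.r / 2) := by
      rw [F.raw_zero]
      exact mem_ball_self (half_pos F.S.r_pos)
    exact h1.eventually (isOpen_ball.mem_nhds h2)
  obtain ⟨ε, hε, hball⟩ := Metric.eventually_nhds_iff_ball.1 (e1.and e2)
  set δ0 := min ε H.ρ with hδ0
  have hδ0p : 0 < δ0 := lt_min hε H.ρ_pos
  -- small starting points
  set η : ℝ := δ0 / (2 * (C + 1)) with hη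
  have hηp : 0 < η := by positivity
  have e3 : ∀ᶠ y in 𝓝 (0 : E2), ‖F.v0 y‖ < min η 1 := by
    have h1 : ContinuousAt F.v0 0 := F.v0_cont.continuousAt (ball_mem_nhds _ H.r_pos)
    have h2 : ContinuousAt (fun y => ‖F.v0 y‖) 0 := h1.norm
    have h3 : ‖F.v0 0‖ < min η 1 := by
      rw [F.v0_zero, norm_zero]
      exact lt_min hηp one_pos
    exact h2.eventually (gt_mem_nhds h3)
  obtain ⟨δ1, hδ1, hsm⟩ := Metric.eventually_nhds_iff_ball.1 e3
  refine ⟨min δ1 δ0, lt_min hδ1 hδ0p, (min_le_right _ _).trans (min_le_right _ _), ?_⟩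
  intro y hy
  have hy1 : ‖F.v0 y‖ < min η 1 := hsm y (ball_subset_ball (min_le_left _ _) hy)
  have hv1 : ‖F.v0 y‖ ≤ 1 := (hy1.trans_le (min_le_right _ _)).le
  have hvη : ‖F.v0 y‖ < η := hy1.trans_le (min_le_left _ _)
  have key : ∀ n, H.M^[n] y ∈ ball (0 : E2) δ0 ∧ F.v0 (H.M^[n] y) = F.psi^[n] (F.v0 y) := by
    intro n
    induction n with
    | zero => exact ⟨ball_subset_ball (min_le_right _ _) hy, rfl⟩
    | succ n ih =>
      set z := H.M^[n] y with hz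
      have hz1 : z ∈ ball (0 : E2) ε := ball_subset_ball (min_le_left _ _) ih.1
      obtain ⟨h1, h2⟩ := hball z hz1
      have h3 : F.v0 (H.M z) = F.psi (F.v0 z) := by
        unfold v0 psi
        rw [h1]
        exact F.nf.conj _ h2
      have h4 : F.v0 (H.M^[n + 1] y) = F.psi^[n + 1] (F.v0 y) := by
        rw [Function.iterate_succ_apply', ← hz, h3, ih.2, Function.iterate_succ_apply']
      refine ⟨?_, h4⟩
      have h5 : H.M z ∈ ball (0 : E2) H.r := H.M_maps z (ball_subset_ball (min_le_right _ _) ih.1)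
      have h6 : ‖F.v0 (H.M^[n + 1] y)‖ ≤ C * ‖F.v0 y‖ := by
        rw [h4]
        refine (hC _ hv1 (n + 1)).trans ?_
        have : σ ^ (n + 1) ≤ 1 := pow_le_one₀ hσ0.le hσ1.le
        have h7 : 0 ≤ C * ‖F.v0 y‖ := by positivity
        nlinarith
      have h7 : ∀ i, |(H.M^[n + 1] y) i| ≤ C * ‖F.v0 y‖ := by
        intro i
        obtain ⟨j, hj⟩ := F.exists_base hK i
        have h8 := F.v0_base h5 hj
        rw [Function.iterate_succ_apply', ← hz, ← h8]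
        rw [Function.iterate_succ_apply', ← hz] at h6
        exact (norm_le_pi_norm (F.v0 (H.M z)) j).trans h6
      rw [mem_ball_zero_iff]
      have h9 : ‖H.M^[n + 1] y‖ ≤ |(H.M^[n + 1] y) 0| + |(H.M^[n + 1] y) 1| := E2_norm_le _
      have h10 : 2 * (C * ‖F.v0 y‖) < δ0 := by
        have h11 : 2 * (C + 1) * η = δ0 := by
          rw [hη]
          field_simp
        have h12 : C * ‖F.v0 y‖ ≤ (C + 1) * ‖F.v0 y‖ := by nlinarith [norm_nonneg (F.v0 y)]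
        have h13 : (C + 1) * ‖F.v0 y‖ < (C + 1) * η := mul_lt_mul_of_pos_left hvη (by linarith)
        linarith
      linarith [h7 0, h7 1]
  intro n
  have hz1 : H.M^[n] y ∈ ball (0 : E2) ε := ball_subset_ball (min_le_left _ _) (key n).1
  obtain ⟨h1, h2⟩ := hball _ hz1
  refine ⟨ball_subset_ball (min_le_right _ _) (key n).1, h2, ?_⟩
  rw [Function.iterate_succ_apply', h1]

/-- the radius of the orbit lemma -/
theorem exists_rad : ∃ δ > 0, δ ≤ H.ρ ∧ (1 ≤ K → ∀ y ∈ ball (0 : E2) δ,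
    ∀ n, H.M^[n] y ∈ ball (0 : E2) H.ρ ∧ F.raw (H.M^[n] y) ∈ ball (0 : F.J → ℝ) (F.S.r / 2) ∧
      F.raw (H.M^[n + 1] y) = F.S.F (F.raw (H.M^[n] y))) := by
  by_cases hK : 1 ≤ K
  · obtain ⟨δ, h1, h2, h3⟩ := F.orbit hK
    exact ⟨δ, h1, h2, fun _ => h3⟩
  · exact ⟨H.ρ, H.ρ_pos, le_rfl, fun h => absurd h hK⟩

/-- the radius -/
def rad : ℝ := F.exists_rad.choose

theorem rad_pos : 0 < F.rad := F.exists_rad.choose_spec.1

theorem rad_le : F.rad ≤ H.ρ := F.exists_rad.choose_spec.2.1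

theorem rad_orbit (hK : 1 ≤ K) {y : E2} (hy : y ∈ ball (0 : E2) F.rad) (n : ℕ) :
    H.M^[n] y ∈ ball (0 : E2) H.ρ ∧ F.raw (H.M^[n] y) ∈ ball (0 : F.J → ℝ) (F.S.r / 2) ∧
      F.raw (H.M^[n + 1] y) = F.S.F (F.raw (H.M^[n] y)) :=
  F.exists_rad.choose_spec.2.2 hK y hy n

/-- the corrected jets along an orbit -/
theorem v0_orbit (hK : 1 ≤ K) {y : E2} (hy : y ∈ ball (0 : E2) F.rad) (n : ℕ) :
    F.v0 (H.M^[n] y) = F.psi^[n] (F.v0 y) :=
  F.nf.orbit (u := fun n => F.raw (H.M^[n] y)) (fun n => (F.rad_orbit hK hy n).2.1)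
    (fun n => (F.rad_orbit hK hy n).2.2) n

/-- decay of the corrected jets -/
theorem v0_decay (hK : 1 ≤ K) {σ : ℝ} (hσ : ∀ j, |F.S.θ j| < σ) (hσ0 : 0 < σ) {y : E2}
    (hy : y ∈ ball (0 : E2) F.rad) : ∃ C : ℝ, 0 ≤ C ∧ ∀ n, ‖F.v0 (H.M^[n] y)‖ ≤ C * σ ^ n := by
  obtain ⟨C, hC0, hC⟩ := H70.iter_bound F.nf.ge F.S.θ_ne hσ hσ0 F.nf.hi (F.v0 y)
  exact ⟨C, hC0, fun n => by rw [F.v0_orbit hK hy n]; exact hC n⟩

/-- the orbit tends to the fixed point -/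
theorem orbit_tendsto (hK : 1 ≤ K) {y : E2} (hy : y ∈ ball (0 : E2) F.rad) :
    Tendsto (fun n => H.M^[n] y) atTop (𝓝 0) := by
  obtain ⟨σ, hσ0, hσ1, hσ⟩ := exists_sigma F.S.θ_lt
  obtain ⟨C, hC0, hC⟩ := F.v0_decay hK hσ hσ0 hy
  have h1 : Tendsto (fun n : ℕ => 2 * (C * σ ^ n)) atTop (𝓝 (2 * (C * 0))) :=
    ((tendsto_pow_atTop_nhds_zero_of_lt_one hσ0.le hσ1).const_mul _).const_mul _
  rw [mul_zero, mul_zero] at h1
  refine squeeze_zero_norm (fun n => ?_) h1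
  have hb : H.M^[n] y ∈ ball (0 : E2) H.r := ball_subset_ball H.ρ_le (F.rad_orbit hK hy n).1
  have h2 : ∀ i, |(H.M^[n] y) i| ≤ C * σ ^ n := by
    intro i
    obtain ⟨j, hj⟩ := F.exists_base hK i
    rw [← F.v0_base hb hj]
    exact (norm_le_pi_norm (F.v0 (H.M^[n] y)) j).trans (hC n)
  exact (E2_norm_le _).trans (by linarith [h2 0, h2 1])

/-- decay of the raw jets -/
theorem raw_decay (hK : 1 ≤ K) {σ : ℝ} (hσ : ∀ j, |F.S.θ j| < σ) (hσ0 : 0 < σ) (hσ1 : σ < 1)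
    {y : E2} (hy : y ∈ ball (0 : E2) F.rad) :
    ∃ C : ℝ, 0 ≤ C ∧ ∀ n j, |F.raw (H.M^[n] y) j| ≤ C * σ ^ n := by
  obtain ⟨C, hC0, hC⟩ := F.v0_decay hK hσ hσ0 hy
  have h1 : ∀ j, ∃ B : ℝ, 0 ≤ B ∧ ∀ v : F.J → ℝ, ‖v‖ ≤ C → |v j - F.nf.R j v| ≤ B * ‖v‖ := by
    intro j
    have h2 : IsFlat 1 fun v : F.J → ℝ => v j - F.nf.R j v :=
      (IsFlat.coord j).sub ((F.nf.R_flat j).mono (F.S.ord_pos j))
    obtain ⟨B, hB0, hB⟩ := h2.bound C
    exact ⟨B, hB0, fun v hv => by simpa using hB v hv⟩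
  choose B hB0 hB using h1
  refine ⟨(∑ j, B j) * C, mul_nonneg (Finset.sum_nonneg fun j _ => hB0 j) hC0, fun n j => ?_⟩
  have hs : σ ^ n ≤ 1 := pow_le_one₀ hσ0.le hσ1.le
  have h3 : ‖F.v0 (H.M^[n] y)‖ ≤ C := (hC n).trans (by nlinarith)
  rw [F.raw_eq]
  refine (hB j _ h3).trans ?_
  have h4 : B j ≤ ∑ j, B j := Finset.single_le_sum (f := B) (fun j _ => hB0 j) (Finset.mem_univ j)
  calc B j * ‖F.v0 (H.M^[n] y)‖ ≤ (∑ j, B j) * (C * σ ^ n) :=
        mul_le_mul h4 (hC n) (norm_nonneg _) (Finset.sum_nonneg fun j _ => hB0 j)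
    _ = (∑ j, B j) * C * σ ^ n := by ring

end Feed

end Vale.Agent.P207.N3.H578
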