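import Vale.Agent.P207.N3.H254.EK

/-!
# P207, line N3, package P3D (OUT1): bounds for the truncated expressions of `H254.EK` over `ℝ`
-/

open Finset

namespace Vale.Agent.P207.N3.H578

open H254

theorem fac_pos (a : ℕ × ℕ) : 0 < fac a := by
  unfold fac
  positivity

theorem fac_le_one (a : ℕ × ℕ) : fac a ≤ 1 := by
  unfold fac
  apply inv_le_one_of_one_le₀
  have h0 : ∀ k : ℕ, (1 : ℝ) ≤ k.factorial := fun k => by
    have := Nat.succ_le_of_lt (Nat.factorial_pos k)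
    exact_mod_cast this
  have h1 := h0 a.1
  have h2 := h0 a.2
  nlinarith

theorem card_tri_le {k K : ℕ} (hk : k ≤ K) : ((tri k).card : ℝ) ≤ ((K : ℝ) + 1) ^ 2 := by
  have h1 : (tri k).card ≤ (k + 1) * (k + 1) := by
    unfold tri
    refine (card_filter_le _ _).trans ?_
    rw [card_product, card_range]
  have h2 : ((tri k).card : ℝ) ≤ ((k : ℝ) + 1) * ((k : ℝ) + 1) := by exact_mod_cast h1
  have h3 : (k : ℝ) ≤ K := by exact_mod_cast hk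
  have h4 : (0 : ℝ) ≤ k := Nat.cast_nonneg k
  nlinarith

theorem mon_abs_le {q : Fin 2 → ℝ} (hq : ‖q‖ ≤ 1) (a : ℕ × ℕ) : |mon q a| ≤ 1 := by
  unfold mon
  rw [abs_mul, abs_pow, abs_pow]
  have h : ∀ i, |q i| ≤ 1 := fun i => (norm_le_pi_norm q i).trans hq
  exact mul_le_one₀ (pow_le_one₀ (abs_nonneg _) (h 0)) (by positivity)
    (pow_le_one₀ (abs_nonneg _) (h 1))

theorem pow_sub_le {x y : ℝ} (hx : |x| ≤ 1) (hy : |y| ≤ 1) (n : ℕ) :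
    |x ^ n - y ^ n| ≤ n * |x - y| := by
  induction n with
  | zero => simp
  | succ n ih =>
    have e : x ^ (n + 1) - y ^ (n + 1) = x * (x ^ n - y ^ n) + (x - y) * y ^ n := by ring
    rw [e]
    refine (abs_add_le _ _).trans ?_
    rw [abs_mul, abs_mul, abs_pow]
    have h1 : |x| * |x ^ n - y ^ n| ≤ 1 * (n * |x - y|) :=
      mul_le_mul hx ih (abs_nonneg _) zero_le_one
    have h2 : |x - y| * |y| ^ n ≤ |x - y| * 1 :=
      mul_le_mul_of_nonneg_left (pow_le_one₀ (abs_nonneg _) hy) (abs_nonneg _)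
    push_cast
    linarith

theorem mon_sub_le {q q' : Fin 2 → ℝ} (hq : ‖q‖ ≤ 1) (hq' : ‖q'‖ ≤ 1) (a : ℕ × ℕ) :
    |mon q a - mon q' a| ≤ (len a : ℝ) * ‖q - q'‖ := by
  have h : ∀ i, |q i| ≤ 1 := fun i => (norm_le_pi_norm q i).trans hq
  have h' : ∀ i, |q' i| ≤ 1 := fun i => (norm_le_pi_norm q' i).trans hq'
  have hd : ∀ i, |q i - q' i| ≤ ‖q - q'‖ := fun i => norm_le_pi_norm (q - q') i
  unfold mon len
  have e : q 0 ^ a.1 * q 1 ^ a.2 - q' 0 ^ a.1 * q' 1 ^ a.2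
      = (q 0 ^ a.1 - q' 0 ^ a.1) * q 1 ^ a.2 + q' 0 ^ a.1 * (q 1 ^ a.2 - q' 1 ^ a.2) := by ring
  rw [e]
  refine (abs_add_le _ _).trans ?_
  rw [abs_mul, abs_mul, abs_pow, abs_pow]
  have h1 : |q 0 ^ a.1 - q' 0 ^ a.1| ≤ a.1 * ‖q - q'‖ :=
    (pow_sub_le (h 0) (h' 0) _).trans (mul_le_mul_of_nonneg_left (hd 0) (Nat.cast_nonneg _))
  have h2 : |q 1 ^ a.2 - q' 1 ^ a.2| ≤ a.2 * ‖q - q'‖ :=
    (pow_sub_le (h 1) (h' 1) _).trans (mul_le_mul_of_nonneg_left (hd 1) (Nat.cast_nonneg _))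
  have h3 : |q 0 ^ a.1 - q' 0 ^ a.1| * |q 1| ^ a.2 ≤ a.1 * ‖q - q'‖ * 1 :=
    mul_le_mul h1 (pow_le_one₀ (abs_nonneg _) (h 1)) (by positivity)
      (mul_nonneg (Nat.cast_nonneg _) (norm_nonneg _))
  have h4 : |q' 0| ^ a.1 * |q 1 ^ a.2 - q' 1 ^ a.2| ≤ 1 * (a.2 * ‖q - q'‖) :=
    mul_le_mul (pow_le_one₀ (abs_nonneg _) (h' 0)) h2 (abs_nonneg _) zero_le_one
  push_cast
  linarith

theorem ev_abs_le {k K : ℕ} (hk : k ≤ K) {T : ℕ × ℕ → ℝ} {w : ℝ} (hw : 0 ≤ w)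
    (hT : ∀ a, len a ≤ k → |T a| ≤ w) {q : Fin 2 → ℝ} (hq : ‖q‖ ≤ 1) :
    |ev k T q| ≤ ((K : ℝ) + 1) ^ 2 * w := by
  unfold ev
  refine (abs_sum_le_sum_abs _ _).trans ?_
  have h1 : ∀ a ∈ tri k, |fac a • (T a * mon q a)| ≤ w := by
    intro a ha
    rw [smul_eq_mul, abs_mul, abs_of_pos (fac_pos a), abs_mul]
    have h2 : |T a| * |mon q a| ≤ w * 1 :=
      mul_le_mul (hT a (mem_tri.1 ha)) (mon_abs_le hq a) (abs_nonneg _) hw
    have h3 : fac a * (|T a| * |mon q a|) ≤ 1 * (w * 1) :=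
      mul_le_mul (fac_le_one a) h2 (by positivity) zero_le_one
    linarith
  refine (sum_le_sum h1).trans ?_
  rw [sum_const, nsmul_eq_mul]
  exact mul_le_mul_of_nonneg_right (card_tri_le hk) hw

theorem ev_sub_le {k K : ℕ} (hk : k ≤ K) {T : ℕ × ℕ → ℝ} {w : ℝ} (hw : 0 ≤ w)
    (hT : ∀ a, 1 ≤ len a → len a ≤ k → |T a| ≤ w) {q q' : Fin 2 → ℝ} (hq : ‖q‖ ≤ 1)
    (hq' : ‖q'‖ ≤ 1) : |ev k T q - ev k T q'| ≤ ((K : ℝ) + 1) ^ 3 * w * ‖q - q'‖ := by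
  unfold ev
  rw [← sum_sub_distrib]
  refine (abs_sum_le_sum_abs _ _).trans ?_
  have hK0 : (0 : ℝ) ≤ K := Nat.cast_nonneg K
  have h1 : ∀ a ∈ tri k, |fac a • (T a * mon q a) - fac a • (T a * mon q' a)|
      ≤ w * (K * ‖q - q'‖) := by
    intro a ha
    rw [← smul_sub, ← mul_sub, smul_eq_mul, abs_mul, abs_of_pos (fac_pos a), abs_mul]
    have h2 : |mon q a - mon q' a| ≤ (len a : ℝ) * ‖q - q'‖ := mon_sub_le hq hq' a
    have h3 : |T a| * |mon q a - mon q' a| ≤ w * (K * ‖q - q'‖) := by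
      rcases Nat.eq_zero_or_pos (len a) with h0 | h0
      · rw [h0, Nat.cast_zero, zero_mul] at h2
        have h4 : |mon q a - mon q' a| = 0 := le_antisymm h2 (abs_nonneg _)
        rw [h4, mul_zero]
        positivity
      · have h5 : (len a : ℝ) ≤ K := by
          have : len a ≤ K := (mem_tri.1 ha).trans hk
          exact_mod_cast this
        exact mul_le_mul (hT a h0 (mem_tri.1 ha)) (h2.trans
          (mul_le_mul_of_nonneg_right h5 (norm_nonneg _))) (abs_nonneg _) hw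
    have h6 : fac a * (|T a| * |mon q a - mon q' a|) ≤ 1 * (w * (K * ‖q - q'‖)) :=
      mul_le_mul (fac_le_one a) h3 (by positivity) zero_le_one
    linarith
  refine (sum_le_sum h1).trans ?_
  rw [sum_const, nsmul_eq_mul]
  have h7 := card_tri_le hk
  have h8 : 0 ≤ w * ‖q - q'‖ := by positivity
  calc ((tri k).card : ℝ) * (w * (K * ‖q - q'‖))
      ≤ ((K : ℝ) + 1) ^ 2 * (w * (K * ‖q - q'‖)) :=
        mul_le_mul_of_nonneg_right h7 (by positivity)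
    _ ≤ ((K : ℝ) + 1) ^ 3 * w * ‖q - q'‖ := by
        have : ((K : ℝ) + 1) ^ 3 * w * ‖q - q'‖ - ((K : ℝ) + 1) ^ 2 * (w * (K * ‖q - q'‖))
            = ((K : ℝ) + 1) ^ 2 * (w * ‖q - q'‖) := by ring
        have h9 : 0 ≤ ((K : ℝ) + 1) ^ 2 * (w * ‖q - q'‖) := by positivity
        linarith

theorem nsq_le (K : ℕ) : ((K : ℝ) + 1) ^ 2 ≤ ((K : ℝ) + 1) ^ 3 :=
  pow_le_pow_right₀ (by linarith [Nat.cast_nonneg (α := ℝ) K]) (by norm_num)

/-- bounds of the truncated gradient -/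
theorem gr_le {K : ℕ} (hK : 1 ≤ K) {T : ℕ × ℕ → ℝ} {w : ℝ} (hw : 0 ≤ w)
    (hT : ∀ a, 1 ≤ len a → len a ≤ K → |T a| ≤ w) {q : Fin 2 → ℝ} (hq : ‖q‖ ≤ 1) :
    ‖gr K T q‖ ≤ ((K : ℝ) + 1) ^ 3 * w := by
  refine (pi_norm_le_iff_of_nonneg (by positivity)).2 fun i => ?_
  rw [Real.norm_eq_abs]
  unfold gr
  refine (ev_abs_le (K := K) (Nat.sub_le K 1) hw (fun a ha => ?_) hq).trans
    (mul_le_mul_of_nonneg_right (nsq_le K) hw)
  unfold sh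
  exact hT _ (by rw [len_add, len_e]; omega) (by rw [len_add, len_e]; omega)

theorem gr_sub_le {K : ℕ} (hK : 1 ≤ K) {T : ℕ × ℕ → ℝ} {w : ℝ} (hw : 0 ≤ w)
    (hT : ∀ a, 1 ≤ len a → len a ≤ K → |T a| ≤ w) {q q' : Fin 2 → ℝ} (hq : ‖q‖ ≤ 1)
    (hq' : ‖q'‖ ≤ 1) : ‖gr K T q - gr K T q'‖ ≤ ((K : ℝ) + 1) ^ 3 * w * ‖q - q'‖ := by
  refine (pi_norm_le_iff_of_nonneg (by positivity)).2 fun i => ?_
  rw [Real.norm_eq_abs, Pi.sub_apply]
  unfold gr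
  refine ev_sub_le (K := K) (Nat.sub_le K 1) hw (fun a _ ha => ?_) hq hq'
  unfold sh
  exact hT _ (by rw [len_add, len_e]; omega) (by rw [len_add, len_e]; omega)

theorem he_le {K : ℕ} (hK : 2 ≤ K) {T : ℕ × ℕ → ℝ} {w : ℝ} (hw : 0 ≤ w)
    (hT : ∀ a, 1 ≤ len a → len a ≤ K → |T a| ≤ w) {q : Fin 2 → ℝ} (hq : ‖q‖ ≤ 1)
    (i j : Fin 2) : |he K T q i j| ≤ ((K : ℝ) + 1) ^ 3 * w := by
  unfold he
  refine (ev_abs_le (K := K) (Nat.sub_le K 2) hw (fun a ha => ?_) hq).trans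
    (mul_le_mul_of_nonneg_right (nsq_le K) hw)
  unfold sh
  exact hT _ (by rw [len_add, len_add, len_e, len_e]; omega)
    (by rw [len_add, len_add, len_e, len_e]; omega)

theorem he_sub_le {K : ℕ} (hK : 2 ≤ K) {T : ℕ × ℕ → ℝ} {w : ℝ} (hw : 0 ≤ w)
    (hT : ∀ a, 1 ≤ len a → len a ≤ K → |T a| ≤ w) {q q' : Fin 2 → ℝ} (hq : ‖q‖ ≤ 1)
    (hq' : ‖q'‖ ≤ 1) (i j : Fin 2) :
    |he K T q i j - he K T q' i j| ≤ ((K : ℝ) + 1) ^ 3 * w * ‖q - q'‖ := by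
  unfold he
  refine ev_sub_le (K := K) (Nat.sub_le K 2) hw (fun a _ ha => ?_) hq hq'
  unfold sh
  exact hT _ (by rw [len_add, len_add, len_e, len_e]; omega)
    (by rw [len_add, len_add, len_e, len_e]; omega)

/-- `lo` is Lipschitz on matrices with entries `≤ 1` -/
theorem lo_sub_le {M M' H H' : Fin 2 → Fin 2 → ℝ} {d : ℝ} (hM : ∀ i j, |M i j| ≤ 1)
    (hM' : ∀ i j, |M' i j| ≤ 1) (hH : ∀ i j, |H i j| ≤ 1) (hH' : ∀ i j, |H' i j| ≤ 1)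
    (h1 : ∀ i j, |M i j - H i j| ≤ d) (h2 : ∀ i j, |M' i j - H' i j| ≤ d) :
    |lo M M' - lo H H'| ≤ 24 * d := by
  have hd : 0 ≤ d := (abs_nonneg _).trans (h1 0 0)
  -- products
  have pr : ∀ {a b c e x y : ℝ}, |a| ≤ x → |e| ≤ x → |a - c| ≤ y → |b - e| ≤ y → |b| ≤ x →
      |c| ≤ x → 0 ≤ x → 0 ≤ y → |a * b - c * e| ≤ 2 * (x * y) := by
    intro a b c e x y ha he hac hbe hb hc hx hy
    have e1 : a * b - c * e = a * (b - e) + (a - c) * e := by ring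
    rw [e1]
    refine (abs_add_le _ _).trans ?_
    rw [abs_mul, abs_mul]
    have := mul_le_mul ha hbe (abs_nonneg _) hx
    have := mul_le_mul hac he (abs_nonneg _) hy
    linarith
  have p1 : ∀ i j k l, |M i j * M' k l - H i j * H' k l| ≤ 2 * d := fun i j k l => by
    have := pr (hM i j) (hH' k l) (h1 i j) (h2 k l) (hM' k l) (hH i j) zero_le_one hd
    linarith
  have p2 : ∀ i j k l, |M i j * M k l - H i j * H k l| ≤ 2 * d := fun i j k l => by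
    have := pr (hM i j) (hH k l) (h1 i j) (h1 k l) (hM k l) (hH i j) zero_le_one hd
    linarith
  have p3 : ∀ i j k l, |M' i j * M' k l - H' i j * H' k l| ≤ 2 * d := fun i j k l => by
    have := pr (hM' i j) (hH' k l) (h2 i j) (h2 k l) (hM' k l) (hH' i j) zero_le_one hd
    linarith
  have q1 : ∀ {A : Fin 2 → Fin 2 → ℝ}, (∀ i j, |A i j| ≤ 1) → ∀ i j k l, |A i j * A k l| ≤ 1 := by
    intro A hA i j k l
    rw [abs_mul]
    exact mul_le_one₀ (hA i j) (abs_nonneg _) (hA k l)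
  have dt : ∀ {A : Fin 2 → Fin 2 → ℝ}, (∀ i j, |A i j| ≤ 1) →
      |A 0 0 * A 1 1 - A 0 1 * A 1 0| ≤ 2 := by
    intro A hA
    have h3 := abs_le.1 (q1 hA 0 0 1 1)
    have h4 := abs_le.1 (q1 hA 0 1 1 0)
    exact abs_le.2 ⟨by linarith [h3.1, h4.2], by linarith [h3.2, h4.1]⟩
  have dM : |(M 0 0 * M 1 1 - M 0 1 * M 1 0) - (H 0 0 * H 1 1 - H 0 1 * H 1 0)| ≤ 4 * d := by
    have h3 := abs_le.1 (p2 0 0 1 1)
    have h4 := abs_le.1 (p2 0 1 1 0)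
    exact abs_le.2 ⟨by linarith [h3.1, h4.2], by linarith [h3.2, h4.1]⟩
  have dM' : |(M' 0 0 * M' 1 1 - M' 0 1 * M' 1 0) - (H' 0 0 * H' 1 1 - H' 0 1 * H' 1 0)|
      ≤ 4 * d := by
    have h3 := abs_le.1 (p3 0 0 1 1)
    have h4 := abs_le.1 (p3 0 1 1 0)
    exact abs_le.2 ⟨by linarith [h3.1, h4.2], by linarith [h3.2, h4.1]⟩
  have dd := pr (dt hM) (dt hH') dM dM' (dt hM') (dt hH) (by norm_num) (by positivity)
  unfold lo
  have a1 := abs_le.1 (p1 0 0 0 0)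
  have a2 := abs_le.1 (p1 0 1 1 0)
  have a3 := abs_le.1 (p1 1 0 0 1)
  have a4 := abs_le.1 (p1 1 1 1 1)
  have a5 := abs_le.1 dd
  exact abs_le.2 ⟨by linarith [a1.1, a2.1, a3.1, a4.1, a5.2],
    by linarith [a1.2, a2.2, a3.2, a4.2, a5.1]⟩

theorem lo_abs_le {H H' : Fin 2 → Fin 2 → ℝ} {s : ℝ} (hs : s ≤ 1)
    (h1 : ∀ i j, |H i j| ≤ s) (h2 : ∀ i j, |H' i j| ≤ s) : |lo H H'| ≤ 8 * s ^ 2 := by
  have hs0 : 0 ≤ s := (abs_nonneg _).trans (h1 0 0)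
  have p : ∀ i j k l, |H i j * H' k l| ≤ s ^ 2 := fun i j k l => by
    rw [abs_mul, sq]
    exact mul_le_mul (h1 i j) (h2 k l) (abs_nonneg _) hs0
  have q : ∀ {A : Fin 2 → Fin 2 → ℝ}, (∀ i j, |A i j| ≤ s) →
      |A 0 0 * A 1 1 - A 0 1 * A 1 0| ≤ 2 * s ^ 2 := by
    intro A hA
    have a1 : |A 0 0 * A 1 1| ≤ s ^ 2 := by
      rw [abs_mul, sq]; exact mul_le_mul (hA 0 0) (hA 1 1) (abs_nonneg _) hs0
    have a2 : |A 0 1 * A 1 0| ≤ s ^ 2 := by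
      rw [abs_mul, sq]; exact mul_le_mul (hA 0 1) (hA 1 0) (abs_nonneg _) hs0
    have b1 := abs_le.1 a1
    have b2 := abs_le.1 a2
    exact abs_le.2 ⟨by linarith [b1.1, b2.2], by linarith [b1.2, b2.1]⟩
  have r : |(H 0 0 * H 1 1 - H 0 1 * H 1 0) * (H' 0 0 * H' 1 1 - H' 0 1 * H' 1 0)|
      ≤ 4 * s ^ 2 := by
    rw [abs_mul]
    have := mul_le_mul (q h1) (q h2) (abs_nonneg _) (by positivity : (0 : ℝ) ≤ 2 * s ^ 2)
    have h3 : s ^ 2 ≤ 1 := pow_le_one₀ hs0 hs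
    have h4 : s ^ 2 * s ^ 2 ≤ s ^ 2 * 1 := mul_le_mul_of_nonneg_left h3 (by positivity)
    linarith
  unfold lo
  have a1 := abs_le.1 (p 0 0 0 0)
  have a2 := abs_le.1 (p 0 1 1 0)
  have a3 := abs_le.1 (p 1 0 0 1)
  have a4 := abs_le.1 (p 1 1 1 1)
  have a5 := abs_le.1 r
  exact abs_le.2 ⟨by linarith [a1.1, a2.1, a3.1, a4.1, a5.2],
    by linarith [a1.2, a2.2, a3.2, a4.2, a5.1]⟩

/-- the truncated logarithm -/
theorem ml_sub_le {K : ℕ} {L L' : ℝ} (hL : |L| ≤ 1) (hL' : |L'| ≤ 1 / 2) :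
    |ml K L + Real.log (1 - L')| ≤ K * |L - L'| + 2 * |L'| ^ (K + 1) := by
  have h1 : |ml K L - ml K L'| ≤ K * |L - L'| := by
    unfold ml
    rw [← sum_sub_distrib]
    refine (abs_sum_le_sum_abs _ _).trans ?_
    have h2 : ∀ i ∈ range K, |((i : ℝ) + 1)⁻¹ • L ^ (i + 1) - ((i : ℝ) + 1)⁻¹ • L' ^ (i + 1)|
        ≤ |L - L'| := by
      intro i _
      rw [← smul_sub, smul_eq_mul, abs_mul]
      have h3 := pow_sub_le hL (hL'.trans (by norm_num)) (i + 1)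
      have h4 : (0 : ℝ) < (i : ℝ) + 1 := by positivity
      rw [abs_of_pos (inv_pos.2 h4)]
      calc ((i : ℝ) + 1)⁻¹ * |L ^ (i + 1) - L' ^ (i + 1)|
          ≤ ((i : ℝ) + 1)⁻¹ * (((i + 1 : ℕ) : ℝ) * |L - L'|) :=
            mul_le_mul_of_nonneg_left h3 (inv_pos.2 h4).le
        _ = |L - L'| := by
            push_cast
            rw [← mul_assoc, inv_mul_cancel₀ h4.ne', one_mul]
    refine (sum_le_sum h2).trans ?_
    rw [sum_const, card_range, nsmul_eq_mul]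
  have h5 : |ml K L' + Real.log (1 - L')| ≤ 2 * |L'| ^ (K + 1) := by
    have h6 := Real.abs_log_sub_add_sum_range_le (x := L') (lt_of_le_of_lt hL' (by norm_num)) K
    have e : ml K L' = ∑ i ∈ range K, L' ^ (i + 1) / ((i : ℝ) + 1) := by
      unfold ml
      refine sum_congr rfl fun i _ => ?_
      rw [smul_eq_mul, div_eq_inv_mul]
    rw [e]
    refine h6.trans ?_
    rw [div_le_iff₀ (by linarith)]
    have h7 : 0 ≤ |L'| ^ (K + 1) := by positivity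
    nlinarith
  have e2 : ml K L + Real.log (1 - L') = (ml K L - ml K L') + (ml K L' + Real.log (1 - L')) := by
    ring
  rw [e2]
  exact (abs_add_le _ _).trans (add_le_add h1 h5)

end Vale.Agent.P207.N3.H578
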