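import Vale.Agent.P207.N3.H578.SideF
import Vale.Agent.P207.N3.H70.Hom

/-!
# P207, line N3, (OUT2): values, continuity, smoothness and homogeneity of the corrected jets
-/

open Set Filter Topology Metric Sum
open scoped ContDiff Gradient

noncomputable section

namespace Vale.Agent.P207.N3.H578

open H254 H70 Jet

namespace Feed

variable {H : Half} {κ ℓ : ℝ} {K : ℕ} (F : Feed H κ ℓ K)

/-! ### values and continuity -/

theorem side_v : F.side.v = F.vv := rfl

/-- (H1) the base variables -/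
theorem side_base (hK : 1 ≤ K) (i : Fin 2) {y : E2} (hy : y ∈ ball (0 : E2) F.rad) :
    F.side.v (inl (e i)) y = y i := by
  obtain ⟨j, hj⟩ := F.exists_base hK i
  rw [side_v, ← hj, F.vv_lab j hy]
  exact F.v0_base (ball_subset_ball (F.rad_le.trans H.ρ_le) hy) hj

theorem side_zero (b : Lb) : F.side.v b 0 = 0 := by
  rw [side_v]
  by_cases h : ∃ j, F.lab j = b
  · obtain ⟨j, rfl⟩ := h
    rw [F.vv_lab j (mem_ball_self F.rad_pos), F.v0_zero]
    rfl
  · exact F.vv_none h 0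

/-- (H2) -/
theorem side_cont (b : Lb) : ContinuousOn (F.side.v b) (ball 0 F.rad) := by
  by_cases h : ∃ j, F.lab j = b
  · obtain ⟨j, rfl⟩ := h
    have h1 : ContinuousOn (fun y => F.v0 y j) (ball 0 F.rad) :=
      ((continuous_apply j).comp_continuousOn F.v0_cont).mono
        (ball_subset_ball (F.rad_le.trans H.ρ_le))
    exact h1.congr fun y hy => F.vv_lab j hy
  · have h1 : F.side.v b = fun _ => 0 := funext fun y => F.vv_none h y
    rw [h1]
    exact continuousOn_const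

theorem side_tendsto (b : Lb) : Tendsto (F.side.v b) (𝓝 0) (𝓝 0) := by
  have h := (F.side_cont b).continuousAt (ball_mem_nhds _ F.rad_pos)
  unfold ContinuousAt at h
  rwa [F.side_zero b] at h

/-- raw and corrected jets -/
theorem side_raw {j : F.J} {y : E2} (hy : y ∈ ball (0 : E2) F.rad) :
    F.side.v (F.lab j) y = rj H (F.lab j) y + F.nf.R j (F.v0 y) := by
  rw [side_v, F.vv_lab j hy]
  have h := F.raw_eq y j
  have h1 : F.raw y j = rj H (F.lab j) y := rfl
  rw [h1] at h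
  linarith

/-! ### (H3) smoothness of the corrections of lowest order -/

/-- the base part of the corrected jets -/
def bs (y : E2) : F.J → ℝ := fun j =>
  if F.lab j = inl (e 0) then y 0 else if F.lab j = inl (e 1) then y 1 else 0

theorem bs_smooth : ContDiff ℝ ∞ F.bs := by
  rw [contDiff_pi]
  intro j
  unfold bs
  split_ifs
  · exact coord_smooth 0
  · exact coord_smooth 1
  · exact contDiff_const

theorem bs_zero : F.bs 0 = 0 := by
  funext j
  unfold bs
  split_ifs <;> rfl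

theorem len_one {a : ℕ × ℕ} (ha : len a = 1) : a = e 0 ∨ a = e 1 := by
  unfold len at ha
  rw [e_zero, e_one]
  rcases Nat.lt_or_ge a.1 1 with h4 | h4
  · right
    exact Prod.ext (by simp; omega) (by simp; omega)
  · left
    exact Prod.ext (by simp; omega) (by simp; omega)

/-- a function of base variables -/
theorem dep_base {D : Set F.J} (hD : ∀ k ∈ D, ∃ b, F.lab k = inl b ∧ len b ≤ 1)
    {R : (F.J → ℝ) → ℝ} (hR : DependsOn R D) {y : E2} (hy : y ∈ ball (0 : E2) H.r) :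
    R (F.v0 y) = R (F.bs y) := by
  refine hR fun k hk => ?_
  obtain ⟨b, hb, hl⟩ := hD k hk
  have h1 : len b = 1 := le_antisymm hl ((F.lab_inl b).1 ⟨k, hb⟩).1
  have hne : (inl (e 1) : Lb) ≠ inl (e 0) := by
    rw [e_zero, e_one]
    simp
  rcases len_one h1 with rfl | rfl
  · rw [F.v0_base hy hb]
    unfold bs
    rw [if_pos hb]
  · rw [F.v0_base hy hb]
    unfold bs
    rw [if_neg (by rw [hb]; exact hne), if_pos hb]

/-- (H3) `T^_a - T_a` is a smooth function of `y` for `|a| = 2` -/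
theorem side_T2 {a : ℕ × ℕ} (ha : len a = 2) (hK : 1 ≤ K) : ∃ g : E2 → ℝ, ContDiff ℝ ∞ g ∧
    g 0 = 0 ∧ ∀ y ∈ ball (0 : E2) F.rad, F.side.v (inl a) y = Tj (H.S y) a + g y := by
  obtain ⟨j, hj⟩ := (F.lab_inl a).2 ⟨by omega, by omega⟩
  refine ⟨fun y => F.nf.R j (F.bs y), (F.nf.R_flat j).1.comp F.bs_smooth, ?_, fun y hy => ?_⟩
  · show F.nf.R j (F.bs 0) = 0
    rw [F.bs_zero]
    exact (F.nf.R_flat j).at_zero (F.S.ord_pos j)
  · have h1 := F.side_raw (j := j) hy
    rw [hj, rj_inl] at h1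
    rw [h1, F.dep_base (D := F.S.D j) (fun k hk => ?_) (F.nf.R_dep j)
      (ball_subset_ball (F.rad_le.trans H.ρ_le) hy)]
    obtain ⟨b, hb1, hb2⟩ := F.D_inl j a hj (by omega) k hk
    exact ⟨b, hb1, by omega⟩

/-- (H3) `X^_a - X_a` is a smooth function of `y` for `|a| = 1` -/
theorem side_X1 {a : ℕ × ℕ} (ha : len a = 1) (hK : 1 ≤ K) : ∃ g : E2 → ℝ, ContDiff ℝ ∞ g ∧
    g 0 = 0 ∧ ∀ y ∈ ball (0 : E2) F.rad, F.side.v (inr a) y = Tj (H.X y) a + g y := by
  obtain ⟨j, hj⟩ := (F.lab_inr a).2 ⟨by omega, by omega⟩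
  refine ⟨fun y => F.nf.R j (F.bs y), (F.nf.R_flat j).1.comp F.bs_smooth, ?_, fun y hy => ?_⟩
  · show F.nf.R j (F.bs 0) = 0
    rw [F.bs_zero]
    exact (F.nf.R_flat j).at_zero (F.S.ord_pos j)
  · have h1 := F.side_raw (j := j) hy
    rw [hj, rj_inr] at h1
    rw [h1, F.dep_base (D := F.S.D j) (fun k hk => ?_) (F.nf.R_dep j)
      (ball_subset_ball (F.rad_le.trans H.ρ_le) hy)]
    rcases F.D_inr j a hj k hk with ⟨b, hb1, hb2⟩ | ⟨b, hb1, hb2⟩
    · exact ⟨b, hb1, by omega⟩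
    · have := ((F.lab_inr b).1 ⟨k, hb1⟩).1
      omega

/-! ### (H4) homogeneity -/

/-- **Homogeneity**: a corrected jet which is a smooth function of `y` near `0` is a weighted
homogeneous polynomial in `y`. -/
theorem side_hom (hK : 1 ≤ K) (b : Lb) (hs : ContDiffAt ℝ ∞ (F.side.v b) 0) :
    ∃ (s : Finset (ℕ × ℕ)) (c : ℕ × ℕ → ℝ), (∀ a ∈ s, κ * a.1 + ℓ * a.2 = wtl κ ℓ b) ∧
      ∀ y ∈ ball (0 : E2) F.rad, F.side.v b y = ∑ a ∈ s, c a * (y 0 ^ a.1 * y 1 ^ a.2) := by
  classical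
  by_cases h : ∃ j, F.lab j = b
  swap
  · refine ⟨∅, fun _ => 0, by simp, fun y _ => ?_⟩
    rw [Finset.sum_empty]
    exact F.vv_none h y
  obtain ⟨i, rfl⟩ := h
  obtain ⟨j0, hj0⟩ := F.exists_base hK 0
  obtain ⟨j1, hj1⟩ := F.exists_base hK 1
  have hne : j0 ≠ j1 := by
    rintro rfl
    rw [hj0, e_zero, e_one] at hj1
    simp at hj1
  -- the function of the base variables
  set π : (F.J → ℝ) → E2 := fun w => w j0 • e1 + w j1 • e2 with hπ
  have hπs : ContDiff ℝ ∞ π :=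
    ((contDiff_apply ℝ ℝ j0).smul contDiff_const).add ((contDiff_apply ℝ ℝ j1).smul contDiff_const)
  have hπ0 : π 0 = 0 := by
    rw [hπ]
    simp
  set f : (F.J → ℝ) → ℝ := fun w => F.side.v (F.lab i) (π w) with hf
  have hfs : ContDiffAt ℝ ∞ f 0 := by
    rw [← hπ0] at hs
    exact hs.comp 0 hπs.contDiffAt
  have hfD : DependsOn f {j0, j1} := by
    intro w w' hw
    rw [hf, hπ]
    show F.side.v (F.lab i) (w j0 • e1 + w j1 • e2) = F.side.v (F.lab i) (w' j0 • e1 + w' j1 • e2)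
    rw [hw j0 (by simp), hw j1 (by simp)]
  obtain ⟨g, hg1, hg2, hg3⟩ := F.nf.hom i hfs hfD
  have hsup : ∀ α ∈ g.support, ∀ j ∈ α.support, j = j0 ∨ j = j1 := by
    intro α hα j hj
    have := mem_supported_iff'.1 hg1 α hα j hj
    simpa using this
  have hprod : ∀ α ∈ g.support, ∀ w : F.J → ℝ, (∏ j ∈ α.support, w j ^ α j)
      = w j0 ^ α j0 * w j1 ^ α j1 := by
    intro α hα w
    have h1 : α.support ⊆ {j0, j1} := fun j hj => by simpa using hsup α hα j hj
    rw [Finset.prod_subset h1 fun j _ hj => by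
      rw [Finsupp.notMem_support_iff.1 hj, pow_zero], Finset.prod_pair hne]
  -- the weights
  have hwt : ∀ α ∈ g.support, κ * (α j0 : ℝ) + ℓ * (α j1 : ℝ) = wtl κ ℓ (F.lab i) := by
    intro α hα
    have h1 : mult F.S.θ α = F.S.θ i := mem_Wt.1 hg2 α hα
    have h2 : mult F.S.θ α = F.S.θ j0 ^ α j0 * F.S.θ j1 ^ α j1 := hprod α hα F.S.θ
    rw [h2] at h1
    have h3 := congrArg abs h1
    rw [abs_mul, abs_pow, abs_pow, F.wt, F.wt, F.wt, hj0, hj1, ← Real.exp_nat_mul,
      ← Real.exp_nat_mul, ← Real.exp_add] at h3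
    have h4 := Real.exp_injective h3
    have h5 : wtl κ ℓ (inl (e 0)) = κ := by
      rw [e_zero]
      simp [wtl]
    have h6 : wtl κ ℓ (inl (e 1)) = ℓ := by
      rw [e_one]
      simp [wtl]
    rw [h5, h6] at h4
    linarith
  -- the identity
  have hid : ∀ y ∈ ball (0 : E2) F.rad, F.side.v (F.lab i) y
      = ∑ α ∈ g.support, g.coeff α * (y 0 ^ α j0 * y 1 ^ α j1) := by
    intro y hy
    have hyr : y ∈ ball (0 : E2) H.r := ball_subset_ball (F.rad_le.trans H.ρ_le) hy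
    have h1 := hg3 (fun n => F.raw (H.M^[n] y)) (fun n => (F.rad_orbit hK hy n).2.1)
      (fun n => (F.rad_orbit hK hy n).2.2) ?_
    · have h2 : F.side.v (F.lab i) y = F.v0 y i := F.vv_lab i hy
      rw [h2]
      have h3 : F.v0 y i = MvPolynomial.eval (F.v0 y) g := h1
      rw [h3, MvPolynomial.eval_eq]
      refine Finset.sum_congr rfl fun α hα => ?_
      rw [hprod α hα, F.v0_base hyr hj0, F.v0_base hyr hj1]
    · have h2 : ∀ᶠ n in atTop, H.M^[n] y ∈ ball (0 : E2) F.rad :=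
        (F.orbit_tendsto hK hy).eventually (ball_mem_nhds _ F.rad_pos)
      filter_upwards [h2] with n hn
      have hnr : H.M^[n] y ∈ ball (0 : E2) H.r := ball_subset_ball (F.rad_le.trans H.ρ_le) hn
      show F.v0 (H.M^[n] y) i = F.side.v (F.lab i) (π (F.v0 (H.M^[n] y)))
      have h3 : π (F.v0 (H.M^[n] y)) = H.M^[n] y := by
        rw [hπ]
        show F.v0 (H.M^[n] y) j0 • e1 + F.v0 (H.M^[n] y) j1 • e2 = _
        rw [F.v0_base hnr hj0, F.v0_base hnr hj1]
        exact (eq_sum _).symm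
      rw [h3]
      exact (F.vv_lab i hn).symm
  set m : (F.J →₀ ℕ) → ℕ × ℕ := fun α => (α j0, α j1) with hm
  refine ⟨g.support.image m, fun p => ∑ α ∈ g.support.filter (fun α => m α = p), g.coeff α,
    ?_, fun y hy => ?_⟩
  · intro a ha
    obtain ⟨α, hα, rfl⟩ := Finset.mem_image.1 ha
    exact hwt α hα
  · rw [hid y hy, ← Finset.sum_fiberwise_of_maps_to (t := g.support.image m) (g := m)
      (fun α hα => Finset.mem_image_of_mem m hα)]
    refine Finset.sum_congr rfl fun p _ => ?_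
    rw [Finset.sum_mul]
    refine Finset.sum_congr rfl fun α hα => ?_
    have h1 := (Finset.mem_filter.1 hα).2
    rw [← h1]

/-- (H4) below the weight `κ` only powers of `y 1` -/
theorem side_hom_lt (hK : 1 ≤ K) (hℓ : 0 < ℓ) (hκ : 0 < κ) {b : Lb} {i : ℕ} (hb : wtl κ ℓ b = ℓ * i)
    (hi : ℓ * i < κ) (hs : ContDiffAt ℝ ∞ (F.side.v b) 0) :
    ∃ c : ℝ, ∀ y ∈ ball (0 : E2) F.rad, F.side.v b y = c * y 1 ^ i := by
  obtain ⟨s, c, h1, h2⟩ := F.side_hom hK b hs
  have h3 : ∀ a ∈ s, a = (0, i) := by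
    intro a ha
    have h4 := h1 a ha
    rw [hb] at h4
    have h5 : a.1 = 0 := by
      by_contra h
      have h6 : (1 : ℝ) ≤ a.1 := by exact_mod_cast Nat.one_le_iff_ne_zero.2 h
      have h7 : (0 : ℝ) ≤ a.2 := Nat.cast_nonneg _
      nlinarith
    rw [h5, Nat.cast_zero, mul_zero, zero_add] at h4
    have h6 : (a.2 : ℝ) = i := mul_left_cancel₀ hℓ.ne' h4
    exact Prod.ext h5 (by exact_mod_cast h6)
  refine ⟨∑ a ∈ s, c a, fun y hy => ?_⟩
  rw [h2 y hy, Finset.sum_mul]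
  refine Finset.sum_congr rfl fun a ha => ?_
  rw [h3 a ha, pow_zero, one_mul]

/-- (H4) at the weight `κ = i ℓ` -/
theorem side_hom_eq (hK : 1 ≤ K) (hℓ : 0 < ℓ) (hκ : 0 < κ) {b : Lb} {i : ℕ} (hb : wtl κ ℓ b = κ)
    (hi : ℓ * i = κ) (hs : ContDiffAt ℝ ∞ (F.side.v b) 0) :
    ∃ c c' : ℝ, ∀ y ∈ ball (0 : E2) F.rad, F.side.v b y = c * y 1 ^ i + c' * y 0 := by
  classical
  obtain ⟨s, c, h1, h2⟩ := F.side_hom hK b hs
  have h3 : ∀ a ∈ s, a = (0, i) ∨ a = (1, 0) := by
    intro a ha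
    have h4 := h1 a ha
    rw [hb] at h4
    have h7 : (0 : ℝ) ≤ a.2 := Nat.cast_nonneg _
    rcases Nat.lt_or_ge a.1 1 with h | h
    · left
      have h5 : a.1 = 0 := by omega
      rw [h5, Nat.cast_zero, mul_zero, zero_add, ← hi] at h4
      have h6 : (a.2 : ℝ) = i := mul_left_cancel₀ hℓ.ne' h4
      exact Prod.ext h5 (by exact_mod_cast h6)
    · right
      have h5 : (1 : ℝ) ≤ a.1 := by exact_mod_cast h
      have h6 : ℓ * (a.2 : ℝ) = 0 := by
        have : 0 ≤ ℓ * (a.2 : ℝ) := by positivity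
        nlinarith
      have h8 : (a.2 : ℝ) = 0 := by
        rcases mul_eq_zero.1 h6 with h9 | h9
        · exact absurd h9 hℓ.ne'
        · exact h9
      rw [h8, mul_zero, add_zero] at h4
      have h9 : (a.1 : ℝ) = 1 := mul_left_cancel₀ hκ.ne' (by rw [h4, mul_one])
      exact Prod.ext (by exact_mod_cast h9) (by exact_mod_cast h8)
  refine ⟨∑ a ∈ s.filter (fun a => a = (0, i)), c a, ∑ a ∈ s.filter (fun a => ¬ a = (0, i)), c a,
    fun y hy => ?_⟩
  rw [h2 y hy, ← Finset.sum_filter_add_sum_filter_not s (fun a => a = (0, i)), Finset.sum_mul,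
    Finset.sum_mul]
  congr 1
  · refine Finset.sum_congr rfl fun a ha => ?_
    rw [(Finset.mem_filter.1 ha).2, pow_zero, one_mul]
  · refine Finset.sum_congr rfl fun a ha => ?_
    obtain ⟨h4, h5⟩ := Finset.mem_filter.1 ha
    rcases h3 a h4 with h6 | h6
    · exact absurd h6 h5
    · rw [h6, pow_one, pow_zero, mul_one]

end Feed

end Vale.Agent.P207.N3.H578
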