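import Vale.Agent.P207.N3.H578.P10b
import Vale.Agent.P207.N3.H254.R0

/-!
# P207, line N3, package P10: (R0), (R0') for a product formula
-/

open Set Filter Topology Metric Sum
open scoped ContDiff Gradient

noncomputable section

namespace Vale.Agent.P207.N3.H578

open H254 H70 Jet

variable {D : PF} {κ ℓ : ℝ} {K : ℕ}

/-- **(R0)**, `r > 1` -/
theorem pf_R0 (FY : Feed D.Y κ ℓ K) (FX : Feed D.X κ ℓ K) (hK : 4 ≤ K) (hℓ : 0 < ℓ) (hκ : ℓ < κ) :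
    SmNear fun x => Tj (D.X.X x) (0, 1) := by
  have hK1 : 1 ≤ K := by omega
  have hKR : (4 : ℝ) ≤ K := by exact_mod_cast hK
  obtain ⟨y, hy⟩ := FY.base_ne hK1
  rw [FX.X1_iff hK1 rfl]
  exact r0_split (by omega) hℓ hκ (twoId FY FX (by omega) hℓ hκ.le) (by nlinarith)
    (FX.base_mem hK1) hy

/-- **(R0)** for the first component, `r` not an integer -/
theorem pf_R0_frac (FY : Feed D.Y κ ℓ K) (FX : Feed D.X κ ℓ K) (hℓ : 0 < ℓ) (hκ : ℓ < κ)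
    (hK : 2 * κ < ((K : ℝ) - 1) * ℓ)
    (hfr : ∀ n : ℕ, (n : ℝ) * ℓ ≠ κ) : SmNear fun x => Tj (D.X.X x) (1, 0) := by
  have hK2 : 3 < K := by
    have h1 : 2 * ℓ < ((K : ℝ) - 1) * ℓ := by linarith
    have h2 : (2 : ℝ) < (K : ℝ) - 1 := lt_of_mul_lt_mul_right h1 hℓ.le
    have h3 : (3 : ℝ) < K := by linarith
    exact_mod_cast h3
  have hK1 : 1 ≤ K := by omega
  obtain ⟨r, hr, h1⟩ := FY.exists_point hK1 1 0
  obtain ⟨y, hy, _⟩ := h1 r hr le_rfl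
  rw [FX.X1_iff hK1 rfl]
  exact r0_frac (by omega) hℓ hκ (twoId FY FX (by omega) hℓ hκ.le) hK
    (FX.base_mem hK1) hfr (y := y) (by rw [hy, mul_one]; exact hr.ne')

/-- **(R0')**, `r = 1` -/
theorem pf_R0' (FY : Feed D.Y ℓ ℓ K) (FX : Feed D.X ℓ ℓ K) (hK : 4 ≤ K) (hℓ : 0 < ℓ) (i : Fin 2) :
    SmNear fun x => Tj (D.X.X x) (e i) := by
  have hK1 : 1 ≤ K := by omega
  have hKR : (4 : ℝ) ≤ K := by exact_mod_cast hK
  obtain ⟨y, y', hy⟩ := FY.base_det hK1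
  rw [FX.X1_iff hK1 (len_e i)]
  refine r0_one (by omega) hℓ (twoId FY FX (by omega) hℓ le_rfl) (by nlinarith)
    (FX.base_mem hK1) (y := y) (y' := y') ?_ i
  intro h
  apply hy
  linarith

end Vale.Agent.P207.N3.H578
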