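import Vale.Agent.P207.N3.H578.Hom
import Vale.Agent.P207.N3.H578.Two
import Vale.Agent.P207.N3.H503.In
import Vale.Agent.P207.N3.H12.DivIn1

/-!
# P207, line N3, package P10: the sides of a product formula satisfy the abstract hypotheses
-/

open Set Filter Topology Metric Sum
open scoped ContDiff Gradient

noncomputable section

namespace Vale.Agent.P207.N3.H578

open H254 H70 Jet
open H12 (smNear_iff)

/-! ### the subalgebra of the functions which are smooth near the origin -/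

theorem SmNear.mul' {f g : E2 → ℝ} (hf : SmNear f) (hg : SmNear g) : SmNear (f * g) := by
  rw [smNear_iff] at *
  filter_upwards [hf, hg] with y h1 h2 using h1.mul h2

theorem SmNear.add' {f g : E2 → ℝ} (hf : SmNear f) (hg : SmNear g) : SmNear (f + g) := by
  rw [smNear_iff] at *
  filter_upwards [hf, hg] with y h1 h2 using h1.add h2

theorem SmNear.const' (c : ℝ) : SmNear (fun _ : E2 => c) := ⟨1, one_pos, contDiffOn_const⟩

/-- the functions which are smooth near `0` -/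
def smA : Subalgebra ℝ (E2 → ℝ) where
  carrier := {f | SmNear f}
  mul_mem' hf hg := SmNear.mul' hf hg
  add_mem' hf hg := SmNear.add' hf hg
  algebraMap_mem' c := SmNear.const' c

theorem mem_smA {f : E2 → ℝ} : f ∈ smA ↔ SmNear f := Iff.rfl

theorem SmNear.congr' {f g : E2 → ℝ} (hf : SmNear f) (h : ∀ᶠ y in 𝓝 (0 : E2), g y = f y) :
    SmNear g := H12.SmNear.congr hf h

theorem SmNear.at {f : E2 → ℝ} (hf : SmNear f) : ContDiffAt ℝ ∞ f 0 :=
  (smNear_iff.1 hf).self_of_nhds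

theorem SmNear.of {f : E2 → ℝ} (hf : ContDiff ℝ ∞ f) : SmNear f := ⟨1, one_pos, hf.contDiffOn⟩

namespace Feed

variable {H : Half} {κ ℓ : ℝ} {K : ℕ} (F : Feed H κ ℓ K)

theorem ev_rad : ∀ᶠ y in 𝓝 (0 : E2), y ∈ ball (0 : E2) F.rad := ball_mem_nhds _ F.rad_pos

/-- (F1) the base jets are smooth -/
theorem base_mem (hK : 1 ≤ K) (i : Fin 2) : F.side.v (inl (e i)) ∈ smA := by
  refine SmNear.congr' (SmNear.of (coord_smooth i)) ?_
  filter_upwards [F.ev_rad] with y hy using F.side_base hK i hy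

/-- (F3) homogeneity below the weight `κ` -/
theorem hom_lt (hK : 1 ≤ K) (hℓ : 0 < ℓ) (hκ : 0 < κ) {b : Lb} {i : ℕ} (hi0 : i ≠ 0)
    (hb : wtl κ ℓ b = ℓ * i) (hi : ℓ * i < κ) (hs : F.side.v b ∈ smA) :
    ∃ c : ℝ, ∀ y, F.side.v b y = c * F.side.v (inl (0, 1)) y ^ i := by
  obtain ⟨c, hc⟩ := F.side_hom_lt hK hℓ hκ hb hi (SmNear.at hs)
  refine ⟨c, fun y => ?_⟩
  by_cases hy : y ∈ ball (0 : E2) F.rad
  · rw [hc y hy, ← F.side_base hK 1 hy, e_one]
  · have h1 : F.side.v b y = 0 := by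
      rw [side_v, F.vv_out b hy, ← side_v, F.side_zero]
    have h2 : F.side.v (inl (0, 1)) y = 0 := by
      rw [side_v, F.vv_out _ hy, ← side_v, F.side_zero]
    rw [h1, h2, zero_pow hi0, mul_zero]

/-- (F3) homogeneity at the weight `κ` -/
theorem hom_eq (hK : 1 ≤ K) (hℓ : 0 < ℓ) (hκ : 0 < κ) {b : Lb} {i : ℕ}
    (hb : wtl κ ℓ b = κ) (hi : ℓ * i = κ) (hs : F.side.v b ∈ smA) :
    ∃ c c' : ℝ, ∀ y, F.side.v b y = c * F.side.v (inl (0, 1)) y ^ i
      + c' * F.side.v (inl (1, 0)) y := by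
  obtain ⟨c, c', hc⟩ := F.side_hom_eq hK hℓ hκ hb hi (SmNear.at hs)
  have hi0 : i ≠ 0 := by
    rintro rfl
    rw [Nat.cast_zero, mul_zero] at hi
    exact hκ.ne hi
  refine ⟨c, c', fun y => ?_⟩
  by_cases hy : y ∈ ball (0 : E2) F.rad
  · rw [hc y hy, ← F.side_base hK 1 hy, ← F.side_base hK 0 hy, e_one, e_zero]
  · have h0 : ∀ b, F.side.v b y = 0 := fun b => by
      rw [side_v, F.vv_out b hy, ← side_v, F.side_zero]
    rw [h0, h0, h0, zero_pow hi0, mul_zero, mul_zero, add_zero]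

/-- (F3') homogeneity at any weight which is not resonant -/
theorem hom_ne (hK : 1 ≤ K) {b : Lb} (hne : ∀ a : ℕ × ℕ, κ * a.1 + ℓ * a.2 ≠ wtl κ ℓ b)
    (hs : F.side.v b ∈ smA) : F.side.v b = 0 := by
  obtain ⟨s, c, h1, h2⟩ := F.side_hom hK b (SmNear.at hs)
  have hs0 : s = ∅ := Finset.eq_empty_of_forall_notMem fun a ha => hne a (h1 a ha)
  funext y
  by_cases hy : y ∈ ball (0 : E2) F.rad
  · rw [h2 y hy, hs0, Finset.sum_empty]
    rfl
  · rw [side_v, F.vv_out b hy, ← side_v, F.side_zero]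
    rfl

/-- a point with given base coordinates -/
theorem exists_point (hK : 1 ≤ K) (s t : ℝ) : ∃ r : ℝ, 0 < r ∧ ∀ c : ℝ, 0 < c → c ≤ r → ∃ y : E2,
    F.side.v (inl (1, 0)) y = c * s ∧ F.side.v (inl (0, 1)) y = c * t := by
  have hn : 0 ≤ ‖(!₂[s, t] : E2)‖ := norm_nonneg _
  refine ⟨F.rad / (2 * (‖(!₂[s, t] : E2)‖ + 1)), by have := F.rad_pos; positivity, fun c hc hcr => ?_⟩
  refine ⟨c • !₂[s, t], ?_⟩
  have hb : c • (!₂[s, t] : E2) ∈ ball (0 : E2) F.rad := by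
    rw [mem_ball_zero_iff, norm_smul, Real.norm_of_nonneg hc.le]
    have h1 : c * ‖(!₂[s, t] : E2)‖ ≤ F.rad / (2 * (‖(!₂[s, t] : E2)‖ + 1)) * ‖(!₂[s, t] : E2)‖ :=
      mul_le_mul_of_nonneg_right hcr hn
    have h2 : F.rad / (2 * (‖(!₂[s, t] : E2)‖ + 1)) * ‖(!₂[s, t] : E2)‖ < F.rad := by
      rw [div_mul_eq_mul_div, div_lt_iff₀ (by positivity)]
      have := F.rad_pos
      nlinarith
    linarith
  have h0 := F.side_base hK 0 hb
  have h1 := F.side_base hK 1 hb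
  rw [e_zero] at h0
  rw [e_one] at h1
  rw [h0, h1]
  exact ⟨rfl, rfl⟩

/-- (F4) the first coordinate is not a function of the second one -/
theorem base_indep (hK : 1 ≤ K) : ∃ y y' : E2,
    F.side.v (inl (0, 1)) y = F.side.v (inl (0, 1)) y' ∧
      F.side.v (inl (1, 0)) y ≠ F.side.v (inl (1, 0)) y' := by
  obtain ⟨r, hr, h1⟩ := F.exists_point hK 1 0
  obtain ⟨y, h2, h3⟩ := h1 r hr le_rfl
  obtain ⟨y', h4, h5⟩ := h1 (r / 2) (by positivity) (by linarith)
  refine ⟨y, y', by rw [h3, h5, mul_zero, mul_zero], ?_⟩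
  rw [h2, h4]
  intro h
  linarith

/-- (F5) the second coordinate does not vanish identically -/
theorem base_ne (hK : 1 ≤ K) : ∃ y : E2, F.side.v (inl (0, 1)) y ≠ 0 := by
  obtain ⟨r, hr, h1⟩ := F.exists_point hK 0 1
  obtain ⟨y, _, h3⟩ := h1 r hr le_rfl
  exact ⟨y, by rw [h3, mul_one]; exact hr.ne'⟩

/-- (F5') the base coordinates are independent -/
theorem base_det (hK : 1 ≤ K) : ∃ y y' : E2,
    F.side.v (inl (1, 0)) y * F.side.v (inl (0, 1)) y'
      - F.side.v (inl (0, 1)) y * F.side.v (inl (1, 0)) y' ≠ 0 := by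
  obtain ⟨r, hr, h1⟩ := F.exists_point hK 1 0
  obtain ⟨r', hr', h1'⟩ := F.exists_point hK 0 1
  obtain ⟨y, h2, h3⟩ := h1 r hr le_rfl
  obtain ⟨y', h4, h5⟩ := h1' r' hr' le_rfl
  refine ⟨y, y', ?_⟩
  rw [h2, h3, h4, h5]
  simp only [mul_one, mul_zero, sub_zero]
  positivity

/-- (F6) raw and corrected jets of lowest order -/
theorem T2_iff (hK : 1 ≤ K) {a : ℕ × ℕ} (ha : len a = 2) :
    SmNear (fun y => Tj (H.S y) a) ↔ F.side.v (inl a) ∈ smA := by
  obtain ⟨g, hg, _, h⟩ := F.side_T2 ha hK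
  have h1 : ∀ᶠ y in 𝓝 (0 : E2), F.side.v (inl a) y = Tj (H.S y) a + g y := by
    filter_upwards [F.ev_rad] with y hy using h y hy
  constructor
  · intro hs
    exact SmNear.congr' (SmNear.add' hs (SmNear.of hg)) h1
  · intro hs
    refine SmNear.congr' (SmNear.add' hs (SmNear.of hg.neg)) ?_
    filter_upwards [h1] with y hy
    show Tj (H.S y) a = F.side.v (inl a) y + -g y
    rw [hy]
    ring

/-- (F6) raw and corrected jets of lowest order -/
theorem X1_iff (hK : 1 ≤ K) {a : ℕ × ℕ} (ha : len a = 1) :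
    SmNear (fun y => Tj (H.X y) a) ↔ F.side.v (inr a) ∈ smA := by
  obtain ⟨g, hg, _, h⟩ := F.side_X1 ha hK
  have h1 : ∀ᶠ y in 𝓝 (0 : E2), F.side.v (inr a) y = Tj (H.X y) a + g y := by
    filter_upwards [F.ev_rad] with y hy using h y hy
  constructor
  · intro hs
    exact SmNear.congr' (SmNear.add' hs (SmNear.of hg)) h1
  · intro hs
    refine SmNear.congr' (SmNear.add' hs (SmNear.of hg.neg)) ?_
    filter_upwards [h1] with y hy
    show Tj (H.X y) a = F.side.v (inr a) y + -g y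
    rw [hy]
    ring

end Feed

end Vale.Agent.P207.N3.H578
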