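import Vale.Agent.P207.N3.H578.P10a
import Vale.Agent.P207.N3.H684.Divi

/-!
# P207, line N3, package P10: (A2) for the sides of a product formula
-/

open Set Filter Topology Metric Sum
open scoped ContDiff Gradient

noncomputable section

namespace Vale.Agent.P207.N3.H578

open H254 H70 Jet

namespace Feed

variable {H : Half} {κ ℓ : ℝ} {K : ℕ} (F : Feed H κ ℓ K)

/-- (A2) a corrected jet times a power of a base coordinate -/
theorem A2 (hK : 1 ≤ K) (i : Fin 2) (b : Lb) (j : ℕ)
    (h : F.side.v b * F.side.v (inl (e i)) ^ j ∈ smA) : F.side.v b ∈ smA := by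
  have h1 : H684.SmN (F.side.v b) := by
    refine H684.SmN_of_pow_mul i F.rad_pos (F.side_cont b) j ?_
    refine SmNear.congr' h ?_
    filter_upwards [F.ev_rad] with y hy
    show y i ^ j * F.side.v b y = F.side.v b y * F.side.v (inl (e i)) y ^ j
    rw [F.side_base hK i hy, mul_comm]
  exact h1

end Feed

end Vale.Agent.P207.N3.H578
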