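import Vale.Agent.P207.N3.H578.P10
import Vale.Agent.P207.N3.H254.R12
import Vale.Agent.P207.N3.H575.R2d

/-!
# P207, line N3, package P10: (R1), (R2) for a product formula
-/

open Set Filter Topology Metric Sum
open scoped ContDiff Gradient

noncomputable section

namespace Vale.Agent.P207.N3.H578

open H254 H70 Jet

variable {D : PF} {κ ℓ : ℝ} {K m : ℕ}

namespace Feed

variable {H : Half} (F : Feed H κ ℓ K)

theorem base_ne0 (hK : 1 ≤ K) : ∃ y : E2, F.side.v (inl (1, 0)) y ≠ 0 := by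
  obtain ⟨r, hr, h1⟩ := F.exists_point hK 1 0
  obtain ⟨y, h2, _⟩ := h1 r hr le_rfl
  exact ⟨y, by rw [h2, mul_one]; exact hr.ne'⟩

/-- the hypotheses of `H575.R2` -/
theorem base575 (hK : 1 ≤ K) (hℓ : 0 < ℓ) (hκ : 0 < κ) : H575.Base κ ℓ F.side smA where
  mem := F.base_mem hK
  p0 := F.base_ne hK
  p1 := by
    obtain ⟨r, hr, h1⟩ := F.exists_point hK 1 0
    obtain ⟨y, h2, h3⟩ := h1 r hr le_rfl
    exact ⟨y, by rw [h2, mul_one]; exact hr.ne', by rw [h3, mul_zero]⟩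
  p2 := F.base_indep hK
  div := fun a _ _ j h => F.A2 hK 1 _ j h
  hom := fun a ha haκ hs y y' hyy => by
    obtain ⟨c, hc⟩ := F.hom_lt hK hℓ hκ (b := inl (0, a)) (i := a) (by omega)
      (by rw [wtl_inl]; push_cast; ring) (by rw [mul_comm]; exact haκ) hs
    rw [hc, hc, hyy]

end Feed

/-- **(R1)** -/
theorem pf_R1 (FY : Feed D.Y κ ℓ (m + 1)) (FX : Feed D.X κ ℓ (m + 1)) (hm : 5 ≤ m) (hℓ : 0 < ℓ)
    (hκ : ℓ < κ) (hK : 2 * κ < m * ℓ) :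
    SmNear (fun y => Tj (D.Y.S y) (0, 2)) ∨ SmNear fun x => Tj (D.X.S x) (0, 2) := by
  have hK1 : 1 ≤ m + 1 := by omega
  have hmR : (5 : ℝ) ≤ m := by exact_mod_cast hm
  have hW : (((m + 1 : ℕ) : ℝ) - 1) * ℓ = m * ℓ := by push_cast; ring
  obtain ⟨y₁, hy₁⟩ := FY.base_ne0 hK1
  obtain ⟨y₂, hy₂⟩ := FY.base_ne hK1
  obtain ⟨x₁, hx₁⟩ := FX.base_ne0 hK1
  obtain ⟨x₂, hx₂⟩ := FX.base_ne hK1
  have H := twoId FY FX (by omega) hℓ hκ.le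
  have H' := twoId (D := D.symm) FX FY (by omega) hℓ hκ.le
  rw [hW] at H H'
  rw [FY.T2_iff hK1 rfl, FX.T2_iff hK1 rfl]
  exact H254.r1 (by omega) hℓ hκ H H' hK (by nlinarith) (FY.base_mem hK1) (FX.base_mem hK1)
    hy₁ hy₂ hx₁ hx₂

/-- **(R2)** -/
theorem pf_R2 (FY : Feed D.Y κ ℓ (m + 1)) (FX : Feed D.X κ ℓ (m + 1)) (hm : 5 ≤ m) (hℓ : 0 < ℓ)
    (hκ : ℓ < κ) (hK : 2 * κ < m * ℓ) (h02 : SmNear fun x => Tj (D.X.S x) (0, 2)) :
    SmNear fun x => Tj (D.X.X x) (1, 0) := by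
  have hK1 : 1 ≤ m + 1 := by omega
  have hW : (((m + 1 : ℕ) : ℝ) - 1) * ℓ = m * ℓ := by push_cast; ring
  have H := twoId FY FX (by omega) hℓ hκ.le
  have H' := twoId (D := D.symm) FX FY (by omega) hℓ hκ.le
  rw [hW] at H H'
  rw [FX.T2_iff hK1 rfl] at h02
  rw [FX.X1_iff hK1 rfl]
  exact H575.R2 hℓ hκ hK (by push_cast; nlinarith) H H' (FY.base575 hK1 hℓ (hℓ.trans hκ))
    (FX.base575 hK1 hℓ (hℓ.trans hκ)) h02

end Vale.Agent.P207.N3.H578
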